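import Mathlib

open NumberField IntermediateField

namespace Vale.Agent.P007

theorem exists_subgroup_index {G : Type*} [Group G] [Finite G] [IsCyclic G] {m : ℕ}
    (hm : m ∣ Nat.card G) : ∃ H : Subgroup G, Nat.card H * m = Nat.card G := by
  obtain ⟨g, hg⟩ := IsCyclic.exists_generator (α := G)
  refine ⟨Subgroup.zpowers (g ^ m), ?_⟩
  have hord : orderOf g = Nat.card G := orderOf_eq_card_of_forall_mem_zpowers hg
  rw [Nat.card_zpowers, orderOf_pow, hord, Nat.gcd_eq_right hm]
  exact Nat.div_mul_cancel hm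

set_option backward.isDefEq.respectTransparency false in
theorem exists_real_cyclic_aux (m q : ℕ) (hm : 1 < m) [hq : Fact q.Prime] (h : 2 * m ∣ q - 1)
    (L : Type) [Field L] [NumberField L] [IsCyclotomicExtension {q} ℚ L] [NeZero q] :
    ∃ (E : IntermediateField ℚ (maximalRealSubfield L)),
      IsGalois ℚ E ∧ Module.finrank ℚ E = m ∧
      IsTotallyReal E ∧ (discr E).natAbs ∣ q ^ (q - 2) := by
  have hq2 : 2 < q := by
    have h1 := hq.out.one_lt
    have h2 := Nat.le_of_dvd (by omega) h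
    omega
  have : IsCMField L := IsCyclotomicExtension.Rat.isCMField L (S := {q}) ⟨q, rfl, hq2⟩
  have : IsAbelianGalois ℚ L := IsCyclotomicExtension.isAbelianGalois {q} ℚ L
  have hcycL : IsCyclic Gal(L/ℚ) := by
    let e := IsCyclotomicExtension.Rat.galEquivZMod q L
    exact isCyclic_of_surjective e.symm e.symm.surjective
  let Lp := maximalRealSubfield L
  have : IsAbelianGalois ℚ Lp := IsAbelianGalois.tower_bot ℚ Lp L
  have : IsTotallyReal Lp := isTotallyReal_maximalRealSubfield
  have hcyc : IsCyclic Gal(Lp/ℚ) :=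
    isCyclic_of_surjective (AlgEquiv.restrictNormalHom (F := ℚ) (K₁ := L) Lp)
      (AlgEquiv.restrictNormalHom_surjective L)
  have hfinL : Module.finrank ℚ L = q - 1 := by
    rw [IsCyclotomicExtension.finrank (n := q) L (Polynomial.cyclotomic.irreducible_rat (NeZero.pos q)),
      Nat.totient_prime hq.out]
  have hfin2 : Module.finrank Lp L = 2 := Algebra.IsQuadraticExtension.finrank_eq_two Lp L
  have hfinLp : Module.finrank ℚ Lp * 2 = q - 1 := by
    rw [← hfin2, Module.finrank_mul_finrank, hfinL]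
  have hcard : Nat.card Gal(Lp/ℚ) = Module.finrank ℚ Lp := IsGalois.card_aut_eq_finrank ℚ Lp
  have hmdvd : m ∣ Nat.card Gal(Lp/ℚ) := by
    rw [hcard]
    obtain ⟨c, hc⟩ := h
    refine ⟨c, ?_⟩
    rw [hc] at hfinLp
    nlinarith
  obtain ⟨H, hH⟩ := exists_subgroup_index hmdvd
  have hab : IsAbelianGalois ℚ (fixedField H) := inferInstance
  refine ⟨fixedField H, hab.toIsGalois, ?_, inferInstance, ?_⟩
  · have h1 : Module.finrank (fixedField H) Lp = Nat.card H := finrank_fixedField_eq_card H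
    have h2 : Module.finrank ℚ (fixedField H) * Module.finrank (fixedField H) Lp =
      Module.finrank ℚ Lp := Module.finrank_mul_finrank _ _ _
    rw [h1, ← hcard, ← hH, mul_comm] at h2
    exact Nat.eq_of_mul_eq_mul_left Nat.card_pos h2
  · have h1 : discr (fixedField H) ∣ discr Lp := discr_dvd_discr _ _
    have h2 : discr Lp ∣ discr L := discr_dvd_discr _ _
    have h3 : discr L = (-1) ^ ((q - 1) / 2) * q ^ (q - 2) :=
      IsCyclotomicExtension.Rat.discr_prime q L
    have h4 := Int.natAbs_dvd_natAbs.mpr (h1.trans h2)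
    rw [h3, Int.natAbs_mul, Int.natAbs_pow, Int.natAbs_pow] at h4
    simpa using h4

set_option backward.isDefEq.respectTransparency false in
theorem exists_real_cyclic (m q : ℕ) (hm : 1 < m) (hq : q.Prime) (h : 2 * m ∣ q - 1) :
    ∃ (E : IntermediateField ℚ (AlgebraicClosure ℚ)) (_ : NumberField E),
      IsGalois ℚ E ∧ Module.finrank ℚ E = m ∧
      IsTotallyReal E ∧ (discr E).natAbs ∣ q ^ (q - 2) := by
  have : Fact q.Prime := ⟨hq⟩
  have : NeZero q := ⟨hq.ne_zero⟩
  obtain ⟨E, h1, h2, h3, h4⟩ := exists_real_cyclic_aux m q hm h (CyclotomicField q ℚ)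
  let φ' : (maximalRealSubfield (CyclotomicField q ℚ)) →ₐ[ℚ] (AlgebraicClosure ℚ) :=
    IsAlgClosed.lift
  let e : E ≃ₐ[ℚ] E.map φ' := E.equivMap φ'
  have hfd : FiniteDimensional ℚ (E.map φ') := e.toLinearEquiv.finiteDimensional
  have hnf : NumberField (E.map φ') := ⟨⟩
  refine ⟨E.map φ', hnf, IsGalois.of_algEquiv e, ?_, IsTotallyReal.ofRingEquiv e.toRingEquiv, ?_⟩
  · rw [← e.toLinearEquiv.finrank_eq, h2]
  · rw [← discr_eq_discr_of_algEquiv _ e]
    exact h4

set_option backward.isDefEq.respectTransparency false in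
theorem inf_eq_bot_of_coprime (E F : IntermediateField ℚ (AlgebraicClosure ℚ))
    [NumberField E] [NumberField F] (h : IsCoprime (discr F) (discr E)) : F ⊓ E = ⊥ := by
  have : FiniteDimensional ℚ (F ⊓ E : IntermediateField ℚ (AlgebraicClosure ℚ)) :=
    inferInstance
  have : NumberField (F ⊓ E : IntermediateField ℚ (AlgebraicClosure ℚ)) := ⟨⟩
  suffices IsUnit (discr ↥(F ⊓ E)) by
    contrapose! this
    have : 1 < Module.finrank ℚ ↥(F ⊓ E) := by
      refine Nat.one_lt_iff_ne_zero_and_ne_one.mpr ⟨Module.finrank_pos.ne', ?_⟩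
      rwa [ne_eq, ← IntermediateField.finrank_eq_one_iff] at this
    exact Int.isUnit_iff_abs_eq.not.mpr <| by linarith [abs_discr_gt_two this]
  let _ : Algebra ↥(F ⊓ E) ↥F := (inclusion (inf_le_left : F ⊓ E ≤ F)).toAlgebra
  let _ : Algebra ↥(F ⊓ E) ↥E := (inclusion (inf_le_right : F ⊓ E ≤ E)).toAlgebra
  exact h.isUnit_of_dvd' (NumberField.discr_dvd_discr _ _) (NumberField.discr_dvd_discr _ _)

set_option backward.isDefEq.respectTransparency false in
theorem exists_compositum (d m p q : ℕ) (hm : 1 < m) (hp : p.Prime) (hq : q.Prime)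
    (hpq : p ≠ q) (E F : IntermediateField ℚ (AlgebraicClosure ℚ)) [NumberField E]
    [NumberField F] [IsGalois ℚ F]
    (hE : Module.finrank ℚ E = m) (hF : Module.finrank ℚ F = d)
    (hEr : IsTotallyReal E) (hFr : IsTotallyReal F)
    (hEd : (discr E).natAbs ∣ q ^ (q - 2)) (hFd : (discr F).natAbs ∣ p ^ (p - 2)) :
    ∃ _ : NumberField (F ⊔ E : IntermediateField ℚ (AlgebraicClosure ℚ)),
      Module.finrank ℚ (F ⊔ E : IntermediateField ℚ (AlgebraicClosure ℚ)) = d * m ∧
      IsTotallyReal (F ⊔ E : IntermediateField ℚ (AlgebraicClosure ℚ)) ∧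
      q ≤ (discr (F ⊔ E : IntermediateField ℚ (AlgebraicClosure ℚ))).natAbs := by
  have hfd : FiniteDimensional ℚ (F ⊔ E : IntermediateField ℚ (AlgebraicClosure ℚ)) :=
    inferInstance
  have hnf : NumberField (F ⊔ E : IntermediateField ℚ (AlgebraicClosure ℚ)) := ⟨⟩
  refine ⟨hnf, ?_, ?_, ?_⟩
  · have hcop : IsCoprime (discr F) (discr E) := by
      rw [Int.isCoprime_iff_nat_coprime]
      refine Nat.Coprime.of_dvd_left hFd (Nat.Coprime.of_dvd_right hEd ?_)
      exact Nat.Coprime.pow _ _ ((Nat.coprime_primes hp hq).mpr hpq)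
    have hdisj : F.LinearDisjoint E := LinearDisjoint.of_inf_eq_bot (inf_eq_bot_of_coprime E F hcop)
    rw [hdisj.finrank_sup, hF, hE]
  · have h1 : IsTotallyReal (F.toSubfield ⊔ E.toSubfield : Subfield (AlgebraicClosure ℚ)) := by
      have : IsTotallyReal F.toSubfield := hFr
      have : IsTotallyReal E.toSubfield := hEr
      exact isTotallyReal_sup
    have h2 : (F ⊔ E).toSubfield = F.toSubfield ⊔ E.toSubfield := sup_toSubfield F E
    rw [← h2] at h1
    exact h1
  · letI : Algebra ↥E ↥(F ⊔ E) := (inclusion (le_sup_right : E ≤ F ⊔ E)).toAlgebra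
    have h1 : discr E ∣ discr ↥(F ⊔ E) := discr_dvd_discr _ _
    have h2 : 2 < |discr E| := abs_discr_gt_two (by rw [hE]; exact hm)
    have h3 : q ∣ (discr E).natAbs := by
      obtain ⟨k, hk, hk'⟩ := (Nat.dvd_prime_pow hq).mp hEd
      rw [hk']
      refine dvd_pow_self _ ?_
      rintro rfl
      rw [Int.abs_eq_natAbs, hk'] at h2
      norm_num at h2
    exact Nat.le_of_dvd (Int.natAbs_pos.mpr (discr_ne_zero _))
      (h3.trans (Int.natAbs_dvd_natAbs.mpr h1))

end Vale.Agent.P007
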