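import Vale.Agent.P007.Necessary
import Vale.Agent.P007.Fields

open MeasureTheory Filter Topology Matrix NumberField

namespace Vale.Agent.P007

theorem bijective_ofReal_comp (K : Type) [Field K] [NumberField K] [IsTotallyReal K] :
    Function.Bijective (fun f : K →+* ℝ => Complex.ofRealHom.comp f) := by
  constructor
  · intro f g hfg
    ext x
    have := RingHom.congr_fun hfg x
    exact Complex.ofReal_injective this
  · intro φ
    have hreal : ComplexEmbedding.IsReal φ := IsTotallyReal.complexEmbedding_isReal φ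
    refine ⟨hreal.embedding, ?_⟩
    ext x
    exact ComplexEmbedding.IsReal.coe_embedding_apply hreal x

theorem exists_ordering (K : Type) [Field K] [NumberField K] (hK : IsTotallyReal K) {n : ℕ}
    (hn : Module.finrank ℚ K = n) : Nonempty (Fin n ≃ (K →+* ℝ)) := by
  have h1 : Nat.card (K →+* ℝ) = n := by
    rw [Nat.card_congr (Equiv.ofBijective _ (bijective_ofReal_comp K)), Nat.card_eq_fintype_card,
      Embeddings.card, hn]
  have : Finite (K →+* ℝ) := Finite.of_equiv _ (Equiv.ofBijective _ (bijective_ofReal_comp K)).symm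
  exact ⟨(Finite.equivFinOfCardEq h1).symm⟩

theorem exists_int_multiple (K : Type) [Field K] [NumberField K] (x : K) :
    ∃ y : ℤ, y ≠ 0 ∧ IsIntegral ℤ ((y : K) * x) := by
  have halg : IsAlgebraic ℤ x :=
    (IsFractionRing.isAlgebraic_iff ℤ ℚ K).mpr (Algebra.IsAlgebraic.isAlgebraic (R := ℚ) x)
  obtain ⟨y, hy, hxy⟩ := halg.exists_integral_multiple
  refine ⟨y, hy, ?_⟩
  rwa [zsmul_eq_mul] at hxy

theorem span_integralClosure_eq_top (K : Type) [Field K] [NumberField K] :
    Submodule.span ℚ (((integralClosure ℤ K).toSubring : Subring K) : Set K) = ⊤ := by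
  rw [eq_top_iff]
  intro x _
  obtain ⟨y, hy, hxy⟩ := exists_int_multiple K x
  have h1 : x = ((y : ℚ)⁻¹) • ((y : K) * x) := by
    rw [Algebra.smul_def, map_inv₀, map_intCast, ← mul_assoc,
      inv_mul_cancel₀ (Int.cast_ne_zero.mpr hy), one_mul]
  rw [h1]
  exact Submodule.smul_mem _ _ (Submodule.subset_span hxy)

noncomputable def maximalDatum (K : Type) [Field K] [NumberField K] {n : ℕ}
    (hn : Module.finrank ℚ K = n) (σ : Fin n ≃ (K →+* ℝ)) : TorusDatum n where
  K := K
  finrank_eq := hn
  σ := σ
  O := (integralClosure ℤ K).toSubring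
  isIntegral := fun _ hx => hx
  span_eq_top := span_integralClosure_eq_top K

theorem absDisc_maximalDatum (K : Type) [Field K] [NumberField K] {n : ℕ}
    (hn : Module.finrank ℚ K = n) (σ : Fin n ≃ (K →+* ℝ)) :
    (maximalDatum K hn σ).absDisc = (discr K).natAbs := by
  unfold TorusDatum.absDisc
  have : (maximalDatum K hn σ).O.toAddSubgroup.relIndex
      (maximalDatum K hn σ).maximalOrder.toAddSubgroup = 1 :=
    AddSubgroup.relIndex_self _
  rw [this]
  simp [maximalDatum]

theorem exists_integral_not_int (F : Type) [Field F] [NumberField F]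
    (hF : 1 < Module.finrank ℚ F) :
    ∃ α : F, IsIntegral ℤ α ∧ ¬ ∃ z : ℤ, α = (z : F) := by
  by_contra hcon
  push Not at hcon
  have h1 : (⊥ : IntermediateField ℚ F) = ⊤ := by
    rw [eq_top_iff]
    intro x _
    obtain ⟨y, hy, hxy⟩ := exists_int_multiple F x
    obtain ⟨z, hz⟩ := hcon _ hxy
    rw [IntermediateField.mem_bot]
    refine ⟨(z : ℚ) / (y : ℚ), ?_⟩
    rw [map_div₀, map_intCast, map_intCast, ← hz]
    field_simp [Int.cast_ne_zero.mpr hy]
  have h2 : Module.finrank ℚ F = 1 := by
    rw [← IntermediateField.finrank_top', ← h1, IntermediateField.finrank_bot]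
  omega

end Vale.Agent.P007
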