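import Mathlib

open MeasureTheory Filter Topology Matrix

namespace Vale.Agent.P007

abbrev SLR (n : ℕ) : Type := SpecialLinearGroup (Fin n) ℝ

def SLZ (n : ℕ) : Subgroup (SLR n) := (SpecialLinearGroup.map (Int.castRingHom ℝ)).range

def X (n : ℕ) : Type := Quotient (MulAction.orbitRel (SLZ n) (SLR n))

instance (n : ℕ) : TopologicalSpace (X n) :=
  inferInstanceAs (TopologicalSpace (Quotient (MulAction.orbitRel (SLZ n) (SLR n))))

instance (n : ℕ) : MeasurableSpace (X n) := borel (X n)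

instance (n : ℕ) : BorelSpace (X n) := ⟨rfl⟩

def coset {n : ℕ} (g : SLR n) : X n := Quotient.mk (MulAction.orbitRel (SLZ n) (SLR n)) g

def act {n : ℕ} (x : X n) (h : SLR n) : X n :=
  Quotient.map (sa := MulAction.orbitRel (SLZ n) (SLR n)) (sb := MulAction.orbitRel (SLZ n) (SLR n))
    (fun g => g * h) (by
      rintro a b ⟨γ, hγ⟩
      exact ⟨γ, by
        change (γ : SLR n) * (b * h) = a * h
        have h1 : (γ : SLR n) * b = a := hγ
        rw [← mul_assoc, h1]⟩) x

def IsInvariantProb {n : ℕ} (m : Measure (X n)) : Prop :=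
  IsProbabilityMeasure m ∧ ∀ h : SLR n, m.map (fun x => act x h) = m

def fullCoord {n : ℕ} (u : Fin (n - 1) → ℝ) (j : Fin n) : ℝ :=
  if h : (j : ℕ) < n - 1 then u ⟨j, h⟩ else -∑ i, u i

theorem sum_fullCoord {n : ℕ} (u : Fin (n - 1) → ℝ) : ∑ j, fullCoord u j = 0 := by
  cases n with
  | zero => simp
  | succ m =>
    rw [Fin.sum_univ_castSucc]
    simp [fullCoord]

noncomputable def diagA {n : ℕ} (u : Fin (n - 1) → ℝ) : SLR n :=
  ⟨Matrix.diagonal fun j => Real.exp (fullCoord u j), by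
    rw [Matrix.det_diagonal, ← Real.exp_sum, sum_fullCoord, Real.exp_zero]⟩

noncomputable def orbitMap {n : ℕ} (x : X n) (u : Fin (n - 1) → ℝ) : X n := act x (diagA u)

def orbitA {n : ℕ} (x : X n) : Set (X n) := Set.range (orbitMap x)

def rowLattice {n : ℕ} (g : SLR n) : Set (Fin n → ℝ) :=
  Set.range fun z : Fin n → ℤ => (fun i => (z i : ℝ)) ᵥ* (g : Matrix (Fin n) (Fin n) ℝ)

structure TorusDatum (n : ℕ) where
  K : Type
  [field : Field K]
  [numberField : NumberField K]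
  finrank_eq : Module.finrank ℚ K = n
  σ : Fin n ≃ (K →+* ℝ)
  O : Subring K
  isIntegral : ∀ x ∈ O, IsIntegral ℤ x
  span_eq_top : Submodule.span ℚ (O : Set K) = ⊤

attribute [instance] TorusDatum.field TorusDatum.numberField

namespace TorusDatum

variable {n : ℕ} (S : TorusDatum n)

def maximalOrder : Subring S.K := (integralClosure ℤ S.K).toSubring

noncomputable def absDisc : ℕ :=
  (NumberField.discr S.K).natAbs *
    (S.O.toAddSubgroup.relIndex S.maximalOrder.toAddSubgroup) ^ 2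

structure IsFractionalIdeal (I : AddSubgroup S.K) : Prop where
  ne_bot : I ≠ ⊥
  mul_mem : ∀ a ∈ S.O, ∀ x ∈ I, a * x ∈ I
  exists_denom : ∃ r ∈ S.O, r ≠ 0 ∧ ∀ x ∈ I, r * x ∈ S.O

def idealMul (I J : AddSubgroup S.K) : AddSubgroup S.K :=
  AddSubgroup.closure {z | ∃ x ∈ I, ∃ y ∈ J, z = x * y}

structure IsProperInvertible (I : AddSubgroup S.K) : Prop where
  fractional : S.IsFractionalIdeal I
  proper : ∀ α : S.K, (∀ x ∈ I, α * x ∈ I) ↔ α ∈ S.O
  invertible : ∃ J, S.IsFractionalIdeal J ∧ S.idealMul I J = S.O.toAddSubgroup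

def Represents (I : AddSubgroup S.K) (w : Fin n → ℤˣ) (g : SLR n) : Prop :=
  ∃ c : ℝ, 0 < c ∧
    rowLattice g = {v | ∃ x ∈ I, v = fun j => c * (((w j : ℤ) : ℝ) * S.σ j x)}

def packet : Set (Set (X n)) :=
  {B | ∃ I, S.IsProperInvertible I ∧ ∃ w g, S.Represents I w g ∧ B = orbitA (coset g)}

end TorusDatum

def IsFundamentalPair {n : ℕ} (B : Set (X n)) (p : X n × Set (Fin (n - 1) → ℝ)) : Prop :=
  MeasurableSet p.2 ∧ Set.BijOn (orbitMap p.1) p.2 B

open Classical in
noncomputable def orbitVolMeasure {n : ℕ} (B : Set (X n)) : Measure (X n) :=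
  if h : ∃ p, IsFundamentalPair B p then
    (volume.restrict h.choose.2).map (orbitMap h.choose.1)
  else 0

noncomputable def TorusDatum.totalMeasure {n : ℕ} (S : TorusDatum n) : Measure (X n) :=
  Measure.sum (fun B : S.packet => orbitVolMeasure (B : Set (X n)))

noncomputable def TorusDatum.packetMeasure {n : ℕ} (S : TorusDatum n) : Measure (X n) :=
  (S.totalMeasure Set.univ)⁻¹ • S.totalMeasure

def ConvergesWeaklyTo {n : ℕ} (μ : ℕ → Measure (X n)) (m : Measure (X n)) : Prop :=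
  (∀ f : X n → ℝ, Continuous f → HasCompactSupport f →
    Tendsto (fun i => ∫ x, f x ∂(μ i)) atTop (𝓝 (∫ x, f x ∂m))) ∧
  ∀ ε : ℝ, 0 < ε → ∃ C : Set (X n), IsCompact C ∧
    ∀ᶠ i in atTop, 1 - ENNReal.ofReal ε ≤ μ i C

def DukeEquidistribution (n : ℕ) (m : Measure (X n)) : Prop :=
  ∀ S : ℕ → TorusDatum n, Tendsto (fun i => (S i).absDisc) atTop atTop →
    ConvergesWeaklyTo (fun i => (S i).packetMeasure) m

end Vale.Agent.P007
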