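import Vale.Agent.P007.Composite

open MeasureTheory Filter Topology Matrix NumberField

namespace Vale.Agent.P007

set_option backward.isDefEq.respectTransparency false in
theorem exists_family (d m : ℕ) (hd : 1 < d) (hm : 1 < m) :
    ∃ (C : ℝ), ∀ N : ℕ, ∃ S : TorusDatum (d * m), S.O = S.maximalOrder ∧ N ≤ S.absDisc ∧
      ∃ α ∈ S.O, (¬ ∃ z : ℤ, α = (z : S.K)) ∧ ∀ j, |S.σ j α| ≤ C := by
  obtain ⟨p, hp, -, hpd⟩ := Nat.exists_prime_gt_modEq_one (k := 2 * d) 0 (by omega)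
  have hpd' : 2 * d ∣ p - 1 := (Nat.modEq_iff_dvd' hp.one_lt.le).mp hpd.symm
  obtain ⟨F, hFnf, hFg, hFd, hFr, hFdisc⟩ := exists_real_cyclic d p hd hp hpd'
  obtain ⟨α₀, hα₀, hα₀'⟩ := exists_integral_not_int F (by rw [hFd]; exact hd)
  refine ⟨∑ f : F →+* ℝ, |f α₀|, fun N => ?_⟩
  obtain ⟨q, hq, hqN, hqm⟩ := Nat.exists_prime_gt_modEq_one (k := 2 * m) (max N p) (by omega)
  have hqm' : 2 * m ∣ q - 1 := (Nat.modEq_iff_dvd' hq.one_lt.le).mp hqm.symm
  obtain ⟨E, hEnf, hEg, hEd, hEr, hEdisc⟩ := exists_real_cyclic m q hm hq hqm'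
  have hpq : p ≠ q := by
    have := le_max_right N p
    omega
  obtain ⟨hnf, hfin, hreal, hdisc⟩ := exists_compositum d m p q hm hp hq hpq E F hEd hFd hEr hFr
    hEdisc hFdisc
  obtain ⟨σ⟩ := exists_ordering _ hreal hfin
  refine ⟨maximalDatum _ hfin σ, rfl, ?_, ?_⟩
  · rw [absDisc_maximalDatum]
    have := le_max_left N p
    omega
  · let ι : F →+* (F ⊔ E : IntermediateField ℚ (AlgebraicClosure ℚ)) :=
      (IntermediateField.inclusion (le_sup_left : F ≤ F ⊔ E)).toRingHom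
    refine ⟨ι α₀, ?_, ?_, ?_⟩
    · change IsIntegral ℤ (ι α₀)
      exact hα₀.map ι.toIntAlgHom
    · rintro ⟨z, hz⟩
      apply hα₀'
      refine ⟨z, ι.injective ?_⟩
      rw [map_intCast]
      exact hz
    · intro j
      change |((σ j).comp ι) α₀| ≤ _
      exact Finset.single_le_sum (f := fun f : F →+* ℝ => |f α₀|) (fun _ _ => abs_nonneg _)
        (Finset.mem_univ _)

theorem composite (n : ℕ) (hn : 4 ≤ n) (hnp : ¬ n.Prime) :
    ∃ S : ℕ → TorusDatum n, (∀ i, (S i).O = (S i).maximalOrder) ∧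
      Tendsto (fun i => (S i).absDisc) atTop atTop ∧
      (∃ U : Set (X n), IsOpen U ∧ U.Nonempty ∧ ∀ i, ∀ B ∈ (S i).packet, Disjoint B U) ∧
      ∀ m : Measure (X n), IsInvariantProb m → ∀ φ : ℕ → ℕ, StrictMono φ →
        ¬ ConvergesWeaklyTo (fun i => (S (φ i)).packetMeasure) m := by
  obtain ⟨d, hdn, hd1, hd2⟩ := Nat.exists_dvd_of_not_prime (by omega) hnp
  obtain ⟨m, rfl⟩ := hdn
  have hd : 1 < d := by
    rcases Nat.lt_or_ge 1 d with h | h
    · exact h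
    · interval_cases d
      · omega
      · omega
  have hm : 1 < m := by
    rcases Nat.lt_or_ge 1 m with h | h
    · exact h
    · interval_cases m
      · omega
      · omega
  obtain ⟨C, hC⟩ := exists_family d m hd hm
  choose S hS1 hS2 hS3 using hC
  refine ⟨S, hS1, tendsto_atTop_mono hS2 tendsto_id,
    ⟨goodOpen _ C, isOpen_goodOpen _ C, nonempty_goodOpen _ C, ?_⟩, ?_⟩
  · intro i
    obtain ⟨α, hα, hαZ, hαC⟩ := hS3 i
    exact disjoint_goodOpen (S i) hα hαZ hαC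
  · intro μ hμ φ hφ hconv
    have := necessary (fun i => S (φ i)) μ hμ hconv C
    obtain ⟨i, hi⟩ := this.exists
    obtain ⟨α, hα, hαZ, hαC⟩ := hS3 (φ i)
    exact hαZ (hi α hα hαC)

theorem main_result :
    (∀ n : ℕ, 4 ≤ n → ¬ n.Prime →
      (∀ m : Measure (X n), IsInvariantProb m → ¬ DukeEquidistribution n m) ∧
      ∃ S : ℕ → TorusDatum n, (∀ i, (S i).O = (S i).maximalOrder) ∧
        Tendsto (fun i => (S i).absDisc) atTop atTop ∧
        (∃ U : Set (X n), IsOpen U ∧ U.Nonempty ∧ ∀ i, ∀ B ∈ (S i).packet, Disjoint B U) ∧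
        ∀ m : Measure (X n), IsInvariantProb m → ∀ φ : ℕ → ℕ, StrictMono φ →
          ¬ ConvergesWeaklyTo (fun i => (S (φ i)).packetMeasure) m) ∧
    (∀ (n : ℕ) (S : ℕ → TorusDatum n) (m : Measure (X n)), IsInvariantProb m →
      ConvergesWeaklyTo (fun i => (S i).packetMeasure) m →
      ∀ C : ℝ, ∀ᶠ i in atTop, ∀ α ∈ (S i).O,
        (∀ j, |(S i).σ j α| ≤ C) → ∃ z : ℤ, α = (z : (S i).K)) := by
  refine ⟨fun n hn hnp => ?_, fun _ S m hm h C => necessary S m hm h C⟩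
  obtain ⟨S, h1, h2, h3, h4⟩ := composite n hn hnp
  refine ⟨fun m hm hD => ?_, S, h1, h2, h3, h4⟩
  exact h4 m hm id strictMono_id (hD S h2)

end Vale.Agent.P007
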