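import Vale.Agent.P007.Prob4

open MeasureTheory Filter Topology Matrix NumberField nonZeroDivisors

namespace Vale.Agent.P007

variable {n : ℕ}

theorem co_add {K : Type} [Field K] (a b : 𝓞 K) : ((a + b : 𝓞 K) : K) = (a : K) + (b : K) :=
  map_add (algebraMap (𝓞 K) K) a b

theorem co_mul {K : Type} [Field K] (a b : 𝓞 K) : ((a * b : 𝓞 K) : K) = (a : K) * (b : K) :=
  map_mul (algebraMap (𝓞 K) K) a b

theorem co_zero {K : Type} [Field K] : ((0 : 𝓞 K) : K) = 0 :=
  map_zero (algebraMap (𝓞 K) K)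

theorem co_sum_smul {K : Type} [Field K] (b : Fin n → 𝓞 K) (z : Fin n → ℤ) :
    ((∑ i, z i • b i : 𝓞 K) : K) = ∑ i, (z i : K) * (b i : K) := by
  change algebraMap (𝓞 K) K _ = _
  rw [map_sum]
  refine Finset.sum_congr rfl fun i _ => ?_
  rw [zsmul_eq_mul, map_mul, map_intCast]

noncomputable def sgnUnit (r : ℝ) : ℤˣ := if 0 ≤ r then 1 else -1

theorem sgnUnit_mul_abs (r : ℝ) : ((sgnUnit r : ℤ) : ℝ) * |r| = r := by
  unfold sgnUnit
  split_ifs with h
  · simp [abs_of_nonneg h]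
  · rw [abs_of_neg (not_le.mp h)]
    simp

noncomputable def classRep (S : TorusDatum n) (k : ClassGroup (𝓞 S.K)) : Ideal (𝓞 S.K) :=
  ((ClassGroup.mk0_surjective k).choose : (Ideal (𝓞 S.K))⁰)

theorem exists_class (S : TorusDatum n) (hS : S.O = S.maximalOrder) {I : AddSubgroup S.K}
    (hI : S.IsFractionalIdeal I) : ∃ (k : ClassGroup (𝓞 S.K)) (α : S.K), α ≠ 0 ∧
      ∀ x : S.K, x ∈ I ↔ ∃ y ∈ classRep S k, x = α * ((y : 𝓞 S.K) : S.K) := by
  obtain ⟨r, hr, hr0, hrI⟩ := hI.exists_denom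
  have hmem : ∀ x : S.K, x ∈ S.O → ∃ y : 𝓞 S.K, (y : S.K) = x := by
    intro x hx
    rw [hS] at hx
    exact ⟨⟨x, hx⟩, rfl⟩
  have hmem' : ∀ y : 𝓞 S.K, (y : S.K) ∈ S.O := by
    intro y
    rw [hS]
    exact y.2
  let J : Ideal (𝓞 S.K) :=
    { carrier := {x | ∃ y ∈ I, (x : S.K) = r * y}
      zero_mem' := ⟨0, I.zero_mem, by simp⟩
      add_mem' := by
        rintro a b ⟨y, hy, hay⟩ ⟨z, hz, hbz⟩
        refine ⟨y + z, I.add_mem hy hz, ?_⟩
        rw [co_add, hay, hbz]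
        ring
      smul_mem' := by
        rintro a b ⟨y, hy, hby⟩
        refine ⟨(a : S.K) * y, hI.mul_mem _ (hmem' a) _ hy, ?_⟩
        rw [smul_eq_mul, co_mul, hby]
        ring }
  have hJ0 : J ≠ ⊥ := by
    intro h
    apply hI.ne_bot
    rw [eq_bot_iff]
    intro x hx
    obtain ⟨y, hy⟩ := hmem _ (hrI x hx)
    have h1 : y ∈ J := ⟨x, hx, hy⟩
    rw [h, Ideal.mem_bot] at h1
    rw [h1, co_zero] at hy
    rw [AddSubgroup.mem_bot]
    exact (mul_eq_zero.mp hy.symm).resolve_left hr0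
  let J' : (Ideal (𝓞 S.K))⁰ := ⟨J, mem_nonZeroDivisors_iff_ne_zero.mpr hJ0⟩
  let k := ClassGroup.mk0 J'
  have hk : ClassGroup.mk0 (ClassGroup.mk0_surjective k).choose = k :=
    (ClassGroup.mk0_surjective k).choose_spec
  obtain ⟨a, b, ha, hb, hab⟩ := ClassGroup.mk0_eq_mk0_iff.mp (show ClassGroup.mk0 J' =
    ClassGroup.mk0 (ClassGroup.mk0_surjective k).choose from hk.symm)
  have ha' : (a : S.K) ≠ 0 := by
    intro h
    exact ha (RingOfIntegers.ext (by simpa using h))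
  have hb' : (b : S.K) ≠ 0 := by
    intro h
    exact hb (RingOfIntegers.ext (by simpa using h))
  refine ⟨k, (b : S.K) / ((a : S.K) * r), div_ne_zero hb' (mul_ne_zero ha' hr0), fun x => ?_⟩
  constructor
  · intro hx
    obtain ⟨y, hy⟩ := hmem _ (hrI x hx)
    have h1 : y ∈ J := ⟨x, hx, hy⟩
    have h2 : a * y ∈ Ideal.span {a} * (J' : Ideal (𝓞 S.K)) :=
      Ideal.mem_span_singleton_mul.mpr ⟨y, h1, rfl⟩
    rw [hab] at h2
    obtain ⟨z, hz, hbz⟩ := Ideal.mem_span_singleton_mul.mp h2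
    refine ⟨z, hz, ?_⟩
    have h3 : (b : S.K) * (z : S.K) = (a : S.K) * (y : S.K) := by
      rw [← co_mul, ← co_mul, hbz]
    rw [hy] at h3
    rw [div_mul_eq_mul_div, eq_div_iff (mul_ne_zero ha' hr0), h3]
    ring
  · rintro ⟨z, hz, hx⟩
    have h2 : b * z ∈ Ideal.span {b} * ((ClassGroup.mk0_surjective k).choose : Ideal (𝓞 S.K)) :=
      Ideal.mem_span_singleton_mul.mpr ⟨z, hz, rfl⟩
    rw [← hab] at h2
    obtain ⟨y, hy, hay⟩ := Ideal.mem_span_singleton_mul.mp h2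
    obtain ⟨x', hx', hyx'⟩ := hy
    have h3 : (a : S.K) * (y : S.K) = (b : S.K) * (z : S.K) := by
      rw [← co_mul, ← co_mul, hay]
    rw [hyx'] at h3
    have h4 : x = x' := by
      rw [hx, div_mul_eq_mul_div, div_eq_iff (mul_ne_zero ha' hr0), ← h3]
      ring
    rw [h4]
    exact hx'

def Tagged (S : TorusDatum n) (k : ClassGroup (𝓞 S.K)) (s : Fin n → ℤˣ) (B : Set (X n)) : Prop :=
  ∃ (g : SLR n) (a : Fin n → ℝ), (∀ j, 0 < a j) ∧
    rowLattice g = {v | ∃ y ∈ classRep S k,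
      v = fun j => a j * (((s j : ℤ) : ℝ) * S.σ j ((y : 𝓞 S.K) : S.K))} ∧ B = orbitA (coset g)

theorem exists_tagged (S : TorusDatum n) (hS : S.O = S.maximalOrder) {B : Set (X n)}
    (hB : B ∈ S.packet) : ∃ p : ClassGroup (𝓞 S.K) × (Fin n → ℤˣ), Tagged S p.1 p.2 B := by
  obtain ⟨I, hI, w, g, ⟨c, hc, hL⟩, rfl⟩ := hB
  obtain ⟨k, α, hα, hIk⟩ := exists_class S hS hI.fractional
  refine ⟨(k, fun j => w j * sgnUnit (S.σ j α)), g, fun j => c * |S.σ j α|, fun j => ?_, ?_, rfl⟩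
  · have : S.σ j α ≠ 0 := by rwa [map_ne_zero]
    exact mul_pos hc (abs_pos.mpr this)
  · have key : ∀ (y : S.K) (j : Fin n), c * (((w j : ℤ) : ℝ) * S.σ j (α * y)) =
        c * |S.σ j α| * ((((w j * sgnUnit (S.σ j α) : ℤˣ) : ℤ) : ℝ) * S.σ j y) := by
      intro y j
      rw [map_mul]
      conv_lhs => rw [← sgnUnit_mul_abs (S.σ j α)]
      push_cast
      ring
    rw [hL]
    ext v
    constructor
    · rintro ⟨x, hx, rfl⟩
      obtain ⟨y, hy, rfl⟩ := (hIk x).mp hx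
      exact ⟨y, hy, funext fun j => key _ j⟩
    · rintro ⟨y, hy, rfl⟩
      exact ⟨_, (hIk _).mpr ⟨y, hy, rfl⟩, funext fun j => (key _ j).symm⟩

theorem orbitA_orbitMap (x : X n) (u : Fin (n - 1) → ℝ) : orbitA (orbitMap x u) = orbitA x := by
  unfold orbitA
  ext y
  constructor
  · rintro ⟨v, rfl⟩
    exact ⟨u + v, orbitMap_add _ _ _⟩
  · rintro ⟨v, rfl⟩
    refine ⟨v - u, ?_⟩
    rw [← orbitMap_add]
    congr 1
    abel

theorem tagged_unique (S : TorusDatum n) {k : ClassGroup (𝓞 S.K)} {s : Fin n → ℤˣ}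
    {B B' : Set (X n)} (hB : Tagged S k s B) (hB' : Tagged S k s B') : B = B' := by
  have hn : 0 < n := Nat.pos_of_ne_zero (neZero_of_datum S).out
  obtain ⟨g, a, ha, hL, rfl⟩ := hB
  obtain ⟨g', a', ha', hL', rfl⟩ := hB'
  obtain ⟨u, hu⟩ := exists_orbitMap_eq (g := g) (g' := g') (t := fun j => a' j / a j)
    (fun j => div_pos (ha' j) (ha j)) (by
      rw [hL, hL']
      have key : ∀ (r : ℝ) (j : Fin n), a' j * r = a j * r * (a' j / a j) := by
        intro r j
        have := (ha j).ne'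
        field_simp
      ext v
      constructor
      · rintro ⟨y, hy, rfl⟩
        exact ⟨_, ⟨y, hy, rfl⟩, funext fun j => key _ j⟩
      · rintro ⟨v', ⟨y, hy, rfl⟩, rfl⟩
        exact ⟨y, hy, funext fun j => (key _ j).symm⟩) hn
  rw [← hu, orbitA_orbitMap]

theorem finite_packet (S : TorusDatum n) (hS : S.O = S.maximalOrder) : Finite S.packet := by
  choose F hF using fun B : S.packet => exists_tagged S hS B.2
  have hinj : Function.Injective F := by
    intro B B' h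
    have h1 := hF B
    have h2 := hF B'
    rw [h] at h1
    exact Subtype.ext (tagged_unique S h1 h2)
  exact Finite.of_injective F hinj

theorem isProperInvertible_O (S : TorusDatum n) : S.IsProperInvertible S.O.toAddSubgroup where
  fractional :=
    { ne_bot := by
        intro h
        have h1 : (1 : S.K) ∈ S.O.toAddSubgroup := S.O.one_mem
        rw [h, AddSubgroup.mem_bot] at h1
        exact one_ne_zero h1
      mul_mem := fun a ha x hx => S.O.mul_mem ha hx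
      exists_denom := ⟨1, S.O.one_mem, one_ne_zero, fun x hx => by rw [one_mul]; exact hx⟩ }
  proper := fun α => ⟨fun h => by simpa using h 1 S.O.one_mem, fun h x hx => S.O.mul_mem h hx⟩
  invertible := ⟨S.O.toAddSubgroup,
    { ne_bot := by
        intro h
        have h1 : (1 : S.K) ∈ S.O.toAddSubgroup := S.O.one_mem
        rw [h, AddSubgroup.mem_bot] at h1
        exact one_ne_zero h1
      mul_mem := fun a ha x hx => S.O.mul_mem ha hx
      exists_denom := ⟨1, S.O.one_mem, one_ne_zero, fun x hx => by rw [one_mul]; exact hx⟩ }, by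
    unfold TorusDatum.idealMul
    apply le_antisymm
    · rw [AddSubgroup.closure_le]
      rintro z ⟨x, hx, y, hy, rfl⟩
      exact S.O.mul_mem hx hy
    · intro x hx
      exact AddSubgroup.subset_closure ⟨x, hx, 1, S.O.one_mem, (mul_one x).symm⟩⟩

theorem det_embeddings_ne_zero (S : TorusDatum n) (b : Module.Basis (Fin n) ℤ (𝓞 S.K)) :
    (Matrix.of fun i j : Fin n => S.σ j ((b i : 𝓞 S.K) : S.K)).det ≠ 0 := by
  intro hdet
  obtain ⟨v, hv0, hv⟩ := Matrix.exists_mulVec_eq_zero_iff.mpr hdet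
  apply hv0
  have h1 : ∀ x : 𝓞 S.K, ∑ j, v j * S.σ j (x : S.K) = 0 := by
    intro x
    rw [← b.sum_repr x]
    have h2 : ∀ j, S.σ j ((∑ i, b.repr x i • b i : 𝓞 S.K) : S.K) =
        ∑ i, (b.repr x i : ℝ) * S.σ j ((b i : 𝓞 S.K) : S.K) := by
      intro j
      rw [co_sum_smul, map_sum]
      refine Finset.sum_congr rfl fun i _ => ?_
      rw [map_mul, map_intCast]
    simp only [h2, Finset.mul_sum]
    rw [Finset.sum_comm]
    refine Finset.sum_eq_zero fun i _ => ?_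
    have h3 := congrFun hv i
    rw [Matrix.mulVec, dotProduct, Pi.zero_apply] at h3
    have h4 : ∑ j, v j * ((b.repr x i : ℝ) * S.σ j ((b i : 𝓞 S.K) : S.K)) =
        (b.repr x i : ℝ) * ∑ j, (Matrix.of fun i j : Fin n => S.σ j ((b i : 𝓞 S.K) : S.K)) i j * v j := by
      rw [Finset.mul_sum]
      refine Finset.sum_congr rfl fun j _ => ?_
      rw [Matrix.of_apply]
      ring
    rw [h4, h3, mul_zero]
  have h5 : ∀ x : S.K, ∑ j, v j * S.σ j x = 0 := by
    intro x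
    obtain ⟨y, hy, hyx⟩ := exists_int_multiple S.K x
    obtain ⟨z, hz⟩ : ∃ z : 𝓞 S.K, (z : S.K) = (y : S.K) * x := ⟨⟨_, hyx⟩, rfl⟩
    have h6 := h1 z
    simp only [hz, map_mul, map_intCast] at h6
    have h8 : (y : ℝ) * ∑ j, v j * S.σ j x = 0 := by
      rw [← h6, Finset.mul_sum]
      refine Finset.sum_congr rfl fun j _ => ?_
      ring
    exact (mul_eq_zero.mp h8).resolve_left (Int.cast_ne_zero.mpr hy)
  have hind : LinearIndependent ℝ (fun j : Fin n => ((S.σ j : S.K →* ℝ) : S.K → ℝ)) := by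
    have h9 := linearIndependent_monoidHom S.K ℝ
    refine h9.comp (fun j : Fin n => ((S.σ j : S.K →+* ℝ) : S.K →* ℝ)) ?_
    intro i j hij
    apply S.σ.injective
    ext x
    exact DFunLike.congr_fun hij x
  have h10 := Fintype.linearIndependent_iff.mp hind v (by
    ext x
    rw [Finset.sum_apply]
    exact h5 x)
  exact funext h10

theorem nonempty_packet (S : TorusDatum n) (hS : S.O = S.maximalOrder) : S.packet.Nonempty := by
  have hn := neZero_of_datum S
  have hn0 : n ≠ 0 := hn.out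
  have hrank : Module.finrank ℤ (𝓞 S.K) = n := by
    rw [RingOfIntegers.rank, S.finrank_eq]
  let b : Module.Basis (Fin n) ℤ (𝓞 S.K) := Module.finBasisOfFinrankEq ℤ (𝓞 S.K) hrank
  let A : Matrix (Fin n) (Fin n) ℝ := Matrix.of fun i j : Fin n => S.σ j ((b i : 𝓞 S.K) : S.K)
  have hA : A.det ≠ 0 := det_embeddings_ne_zero S b
  let c : ℝ := (|A.det|⁻¹) ^ ((n : ℝ)⁻¹)
  have hc : 0 < c := Real.rpow_pos_of_pos (inv_pos.mpr (abs_pos.mpr hA)) _
  have hcn : c ^ n = |A.det|⁻¹ :=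
    Real.rpow_inv_natCast_pow (inv_nonneg.mpr (abs_nonneg _)) hn0
  let w : Fin n → ℤˣ := fun j => if j = 0 then sgnUnit A.det else 1
  have hw : ∏ j, ((w j : ℤ) : ℝ) = ((sgnUnit A.det : ℤ) : ℝ) := by
    have h1 : ∀ j, ((w j : ℤ) : ℝ) = if j = 0 then ((sgnUnit A.det : ℤ) : ℝ) else 1 := by
      intro j
      simp only [w]
      split_ifs <;> simp
    rw [Finset.prod_congr rfl fun j _ => h1 j, Finset.prod_ite_eq' Finset.univ (0 : Fin n)]
    simp
  have hdet : (c • (A * diagonal fun j => ((w j : ℤ) : ℝ))).det = 1 := by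
    rw [Matrix.det_smul, Matrix.det_mul, Matrix.det_diagonal, hw, Fintype.card_fin, hcn]
    have h1 := sgnUnit_mul_abs A.det
    have h2 : ((sgnUnit A.det : ℤ) : ℝ) * ((sgnUnit A.det : ℤ) : ℝ) = 1 := by
      have h3 : (sgnUnit A.det : ℤ) * (sgnUnit A.det : ℤ) = 1 := Int.units_coe_mul_self _
      exact_mod_cast h3
    have h4 : |A.det| ≠ 0 := abs_ne_zero.mpr hA
    have h5 : A.det * ((sgnUnit A.det : ℤ) : ℝ) = |A.det| := by
      calc A.det * ((sgnUnit A.det : ℤ) : ℝ)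
          = (((sgnUnit A.det : ℤ) : ℝ) * |A.det|) * ((sgnUnit A.det : ℤ) : ℝ) := by rw [h1]
        _ = (((sgnUnit A.det : ℤ) : ℝ) * ((sgnUnit A.det : ℤ) : ℝ)) * |A.det| := by ring
        _ = |A.det| := by rw [h2, one_mul]
    rw [h5, inv_mul_cancel₀ h4]
  let g : SLR n := ⟨c • (A * diagonal fun j => ((w j : ℤ) : ℝ)), hdet⟩
  have hO : ∀ x : S.K, x ∈ S.O ↔ ∃ y : 𝓞 S.K, (y : S.K) = x := by
    intro x
    rw [hS]
    exact ⟨fun hx => ⟨⟨x, hx⟩, rfl⟩, fun ⟨y, hy⟩ => hy ▸ y.2⟩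
  have key : ∀ z : Fin n → ℤ, (fun i => (z i : ℝ)) ᵥ* (g : Matrix (Fin n) (Fin n) ℝ) =
      fun j => c * (((w j : ℤ) : ℝ) * S.σ j ((∑ i, z i • b i : 𝓞 S.K) : S.K)) := by
    intro z
    ext j
    change (_ ᵥ* (c • (A * diagonal fun j => ((w j : ℤ) : ℝ)))) j = _
    rw [Matrix.vecMul_smul, Pi.smul_apply, ← Matrix.vecMul_vecMul, Matrix.vecMul_diagonal,
      co_sum_smul, map_sum, smul_eq_mul, Matrix.vecMul, dotProduct, mul_comm (∑ i, _) _]
    congr 2
    refine Finset.sum_congr rfl fun i _ => ?_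
    rw [map_mul, map_intCast]
    rfl
  refine ⟨orbitA (coset g), S.O.toAddSubgroup, isProperInvertible_O S, w, g, ⟨c, hc, ?_⟩, rfl⟩
  ext v
  constructor
  · rintro ⟨z, rfl⟩
    exact ⟨_, (hO _).mpr ⟨_, rfl⟩, key z⟩
  · rintro ⟨x, hx, rfl⟩
    obtain ⟨y, rfl⟩ := (hO x).mp hx
    refine ⟨fun i => b.repr y i, ?_⟩
    have h1 := key (fun i => b.repr y i)
    rw [b.sum_repr y] at h1
    exact h1

theorem isProbabilityMeasure_packetMeasure (S : TorusDatum n) (hS : S.O = S.maximalOrder) :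
    IsProbabilityMeasure S.packetMeasure := by
  have hfin : Finite S.packet := finite_packet S hS
  have := Fintype.ofFinite S.packet
  have hne := nonempty_packet S hS
  have hB : ∀ B : S.packet, orbitVolMeasure (B : Set (X n)) Set.univ ≠ 0 ∧
      orbitVolMeasure (B : Set (X n)) Set.univ ≠ ⊤ := by
    rintro ⟨B, I, hI, w, g, hg, rfl⟩
    exact orbitVolMeasure_univ (span_stab_eq_top S hS hI.fractional hg)
  have htot : S.totalMeasure Set.univ = ∑ B : S.packet, orbitVolMeasure (B : Set (X n)) Set.univ := by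
    unfold TorusDatum.totalMeasure
    rw [Measure.sum_apply _ MeasurableSet.univ, tsum_fintype]
  have h0 : S.totalMeasure Set.univ ≠ 0 := by
    rw [htot]
    intro h
    obtain ⟨B, hBp⟩ := hne
    exact (hB ⟨B, hBp⟩).1 ((Finset.sum_eq_zero_iff.mp h) ⟨B, hBp⟩ (Finset.mem_univ _))
  have h1 : S.totalMeasure Set.univ ≠ ⊤ := by
    rw [htot]
    exact ENNReal.sum_ne_top.mpr fun B _ => (hB B).2
  refine ⟨?_⟩
  unfold TorusDatum.packetMeasure
  rw [Measure.smul_apply, smul_eq_mul]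
  exact ENNReal.inv_mul_cancel h0 h1

end Vale.Agent.P007
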