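import Vale.Agent.P007.Main
import Vale.Agent.P007.Prob5

open MeasureTheory Filter Topology Matrix NumberField

namespace Vale.Agent.P007

theorem composite_factor (n : ℕ) (hn : 4 ≤ n) (hnp : ¬ n.Prime) :
    ∃ d m, 1 < d ∧ 1 < m ∧ n = d * m := by
  obtain ⟨d, hdn, hd1, hd2⟩ := Nat.exists_dvd_of_not_prime (by omega) hnp
  obtain ⟨m, rfl⟩ := hdn
  refine ⟨d, m, ?_, ?_, rfl⟩
  · rcases Nat.lt_or_ge 1 d with h | h
    · exact h
    · interval_cases d
      · omega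
      · omega
  · rcases Nat.lt_or_ge 1 m with h | h
    · exact h
    · interval_cases m
      · omega
      · omega

theorem exists_sequence (n : ℕ) (hn : 4 ≤ n) (hnp : ¬ n.Prime) :
    ∃ (C : ℝ) (S : ℕ → TorusDatum n), (∀ i, (S i).O = (S i).maximalOrder) ∧
      (∀ N, N ≤ (S N).absDisc) ∧
      ∀ i, ∃ α ∈ (S i).O, (¬ ∃ z : ℤ, α = (z : (S i).K)) ∧ ∀ j, |(S i).σ j α| ≤ C := by
  obtain ⟨d, m, hd, hm, rfl⟩ := composite_factor n hn hnp
  obtain ⟨C, hC⟩ := exists_family d m hd hm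
  choose S hS1 hS2 hS3 using hC
  exact ⟨C, S, hS1, hS2, hS3⟩

end Vale.Agent.P007
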