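import Vale.Agent.P007.Obstruct

open MeasureTheory Filter Topology Matrix

namespace Vale.Agent.P007

variable {n : ℕ}

theorem vecMul_mem_rowLattice (g : SLR n) (z : Fin n → ℤ) :
    (fun i => (z i : ℝ)) ᵥ* (g : Matrix (Fin n) (Fin n) ℝ) ∈ rowLattice g := ⟨z, rfl⟩

theorem row_mem_rowLattice (g : SLR n) (i : Fin n) :
    (fun j => (g : Matrix (Fin n) (Fin n) ℝ) i j) ∈ rowLattice g := by
  refine ⟨Pi.single i 1, ?_⟩
  have : (fun k => ((Pi.single i 1 : Fin n → ℤ) k : ℝ)) = Pi.single i 1 := by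
    ext k
    by_cases h : k = i
    · subst h; simp
    · simp [h]
  simp only [this, Matrix.single_one_vecMul]
  rfl

theorem intConj_of_represents (S : TorusDatum n)
    {I : AddSubgroup S.K} (hI : S.IsFractionalIdeal I) {w : Fin n → ℤˣ} {g : SLR n}
    (hg : S.Represents I w g) {α : S.K} (hα : α ∈ S.O) :
    IntConj (fun j => S.σ j α) g := by
  obtain ⟨c, hc, hL⟩ := hg
  have hrow : ∀ i : Fin n, ∃ z : Fin n → ℤ,
      (fun k => (z k : ℝ)) ᵥ* (g : Matrix (Fin n) (Fin n) ℝ) =
        fun j => (g : Matrix (Fin n) (Fin n) ℝ) i j * S.σ j α := by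
    intro i
    have h1 := row_mem_rowLattice g i
    rw [hL] at h1
    obtain ⟨x, hx, hxv⟩ := h1
    have h2 : α * x ∈ I := hI.mul_mem α hα x hx
    have h3 : (fun j => (g : Matrix (Fin n) (Fin n) ℝ) i j * S.σ j α) ∈ rowLattice g := by
      rw [hL]
      refine ⟨α * x, h2, ?_⟩
      ext j
      have h4 : (g : Matrix (Fin n) (Fin n) ℝ) i j = c * (((w j : ℤ) : ℝ) * S.σ j x) :=
        congrFun hxv j
      rw [h4, map_mul]
      ring
    obtain ⟨z, hz⟩ := h3
    exact ⟨z, hz⟩
  choose z hz using hrow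
  refine ⟨Matrix.of z, ?_⟩
  ext i j
  rw [Matrix.mul_diagonal]
  exact (congrFun (hz i) j).symm

theorem intConj_mul_diagA {d : Fin n → ℝ} {g : SLR n} (hg : IntConj d g)
    (u : Fin (n - 1) → ℝ) : IntConj d (g * diagA u) := by
  obtain ⟨M, hM⟩ := hg
  refine ⟨M, ?_⟩
  rw [cm_mul]
  have hcomm : ((diagA u : SLR n) : Matrix (Fin n) (Fin n) ℝ) * diagonal d =
      diagonal d * ((diagA u : SLR n) : Matrix (Fin n) (Fin n) ℝ) := by
    change diagonal _ * diagonal d = diagonal d * diagonal _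
    rw [Matrix.diagonal_mul_diagonal, Matrix.diagonal_mul_diagonal]
    congr 1
    ext j
    ring
  rw [mul_assoc, hcomm, ← mul_assoc, hM, mul_assoc]

theorem intConj_of_mem_packet (S : TorusDatum n) {B : Set (X n)} (hB : B ∈ S.packet)
    {x : X n} (hx : x ∈ B) {α : S.K} (hα : α ∈ S.O) :
    ∃ g : SLR n, coset g = x ∧ IntConj (fun j => S.σ j α) g := by
  obtain ⟨I, hI, w, g, hg, rfl⟩ := hB
  obtain ⟨u, rfl⟩ := hx
  exact ⟨g * diagA u, (act_coset _ _).symm, intConj_mul_diagA (intConj_of_represents S hI.fractional hg hα) u⟩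

theorem intConj_const {r : ℝ} {g : SLR n} [NeZero n] (h : IntConj (fun _ => r) g) :
    ∃ z : ℤ, r = z := by
  rw [intConj_iff] at h
  obtain ⟨M, hM⟩ := h
  have h1 : diagonal (fun _ : Fin n => r) = r • (1 : Matrix (Fin n) (Fin n) ℝ) := by
    rw [Matrix.smul_one_eq_diagonal]
  rw [h1, Matrix.mul_smul, Matrix.smul_mul, mul_one, cm_mul_inv] at hM
  have h2 := congrFun (congrFun hM 0) 0
  simp at h2
  exact ⟨M 0 0, h2⟩

noncomputable def coeffBound (n : ℕ) (C : ℝ) : ℤ := ⌈max C 1 ^ n * (n.choose (n / 2) : ℝ)⌉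

open Classical in
noncomputable def rootPool (n : ℕ) (C : ℝ) : Set ℝ :=
  ⋃ (f : Polynomial ℤ) (_ : f.natDegree ≤ n ∧
    ∀ i, f.coeff i ∈ Set.Icc (-coeffBound n C) (coeffBound n C)),
      ((f.map (Int.castRingHom ℝ)).roots.toFinset : Set ℝ)

theorem finite_rootPool (n : ℕ) (C : ℝ) : (rootPool n C).Finite :=
  Polynomial.bUnion_roots_finite _ _ (Set.finite_Icc _ _)

theorem mem_rootPool {d : Fin n → ℝ} {g : SLR n} (h : IntConj d g) {C : ℝ}
    (hC : ∀ j, |d j| ≤ C) (j : Fin n) : d j ∈ rootPool n C := by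
  rw [intConj_iff] at h
  obtain ⟨M, hM⟩ := h
  have hchar : M.charpoly.map (Int.castRingHom ℝ) =
      ∏ i, (Polynomial.X - Polynomial.C (d i)) := by
    rw [← Matrix.charpoly_map, ← hM]
    have h1 : ((g : Matrix (Fin n) (Fin n) ℝ) * diagonal d *
        ((g⁻¹ : SLR n) : Matrix (Fin n) (Fin n) ℝ)).charpoly = (diagonal d).charpoly := by
      rw [Matrix.charpoly_mul_comm, ← mul_assoc, cm_inv_mul, one_mul]
    rw [h1, Matrix.charpoly_diagonal]
  have hmonic : M.charpoly.Monic := Matrix.charpoly_monic M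
  have hdeg : M.charpoly.natDegree = n := by
    rw [Matrix.charpoly_natDegree_eq_dim]; simp
  have hprod : M.charpoly.map (Int.castRingHom ℝ) =
      ((Finset.univ.val.map d).map fun a => Polynomial.X - Polynomial.C a).prod := by
    rw [hchar, Multiset.map_map]
    rfl
  have hroots : (M.charpoly.map (Int.castRingHom ℝ)).roots = Finset.univ.val.map d := by
    rw [hprod, Polynomial.roots_multiset_prod_X_sub_C]
  have hne : M.charpoly.map (Int.castRingHom ℝ) ≠ 0 := (hmonic.map _).ne_zero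
  have hcoeff : ∀ i, ‖(M.charpoly.map (Int.castRingHom ℝ)).coeff i‖ ≤
      max C 1 ^ n * (n.choose (n / 2) : ℝ) := by
    intro i
    have h2 := Polynomial.coeff_bdd_of_roots_le (B := C) (d := n) (RingHom.id ℝ)
      (p := M.charpoly.map (Int.castRingHom ℝ)) (hmonic.map _) (by
        rw [Polynomial.map_id, hprod]
        exact Polynomial.Splits.multisetProd (by
          intro f hf
          obtain ⟨a, -, rfl⟩ := Multiset.mem_map.mp hf
          exact Polynomial.Splits.X_sub_C a)) (by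
        rw [hmonic.natDegree_map, hdeg]) (by
        rw [Polynomial.map_id, hroots]
        intro z hz
        obtain ⟨a, -, rfl⟩ := Multiset.mem_map.mp hz
        exact hC a) i
    rwa [Polynomial.map_id] at h2
  unfold rootPool
  simp only [Set.mem_iUnion]
  refine ⟨M.charpoly, ⟨hdeg.le, fun i => ?_⟩, ?_⟩
  · have h3 := hcoeff i
    rw [Polynomial.coeff_map] at h3
    simp only [Int.coe_castRingHom, Real.norm_eq_abs] at h3
    rw [Set.mem_Icc, ← abs_le]
    have h4 : ((|M.charpoly.coeff i| : ℤ) : ℝ) ≤ coeffBound n C := by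
      rw [Int.cast_abs]
      exact h3.trans (Int.le_ceil _)
    exact_mod_cast h4
  · simp only [Finset.mem_coe, Multiset.mem_toFinset, hroots]
    exact Multiset.mem_map_of_mem d (Finset.mem_univ j)

def badDiag (n : ℕ) (C : ℝ) : Set (Fin n → ℝ) :=
  {d | (∀ j, d j ∈ rootPool n C) ∧ ¬ ∃ r, ∀ j, d j = r}

theorem finite_badDiag (n : ℕ) (C : ℝ) : (badDiag n C).Finite := by
  have h1 : (Set.univ.pi fun _ : Fin n => rootPool n C).Finite :=
    Set.Finite.pi fun _ => finite_rootPool n C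
  exact h1.subset fun d hd j _ => hd.1 j

def goodOpen (n : ℕ) (C : ℝ) : Set (X n) := ⋂ d ∈ badDiag n C, goodSet d

theorem isOpen_goodOpen (n : ℕ) (C : ℝ) : IsOpen (goodOpen n C) :=
  (finite_badDiag n C).isOpen_biInter fun d _ => isOpen_goodSet d

theorem dense_goodOpen (n : ℕ) (C : ℝ) : Dense (goodOpen n C) :=
  dense_biInter_of_isOpen (fun d _ => isOpen_goodSet d) (finite_badDiag n C).countable
    fun d hd => dense_goodSet d hd.2

instance : Nonempty (X n) := ⟨coset 1⟩

theorem nonempty_goodOpen (n : ℕ) (C : ℝ) : (goodOpen n C).Nonempty :=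
  (dense_goodOpen n C).nonempty

theorem neZero_of_datum (S : TorusDatum n) : NeZero n :=
  ⟨fun h => by
    have h1 : 0 < Module.finrank ℚ S.K := Module.finrank_pos
    rw [S.finrank_eq, h] at h1
    exact lt_irrefl _ h1⟩

theorem disjoint_goodOpen (S : TorusDatum n) {α : S.K} (hα : α ∈ S.O)
    (hαZ : ¬ ∃ z : ℤ, α = (z : S.K)) {C : ℝ} (hC : ∀ j, |S.σ j α| ≤ C) :
    ∀ B ∈ S.packet, Disjoint B (goodOpen n C) := by
  have := neZero_of_datum S
  intro B hB
  rw [Set.disjoint_left]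
  intro x hx hxU
  obtain ⟨g, hgx, hg⟩ := intConj_of_mem_packet S hB hx hα
  have hbad : (fun j => S.σ j α) ∈ badDiag n C := by
    refine ⟨fun j => mem_rootPool hg hC j, ?_⟩
    rintro ⟨r, hr⟩
    have h1 : (fun j => S.σ j α) = fun _ => r := funext hr
    rw [h1] at hg
    obtain ⟨z, hz⟩ := intConj_const hg
    apply hαZ
    refine ⟨z, ?_⟩
    apply (S.σ 0).injective
    rw [map_intCast]
    exact (hr 0).trans hz
  have h2 : x ∈ goodSet (fun j => S.σ j α) := by
    have := Set.mem_iInter₂.mp hxU _ hbad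
    exact this
  exact h2 g hgx hg

theorem exists_test_function {U : Set (X n)} (hU : IsOpen U) (hne : U.Nonempty) :
    ∃ f : X n → ℝ, Continuous f ∧ HasCompactSupport f ∧ (∀ x, 0 ≤ f x) ∧
      (∀ x, x ∉ U → f x = 0) ∧
      (∀ m : Measure (X n), IsInvariantProb m → 0 < ∫ x, f x ∂m) := by
  obtain ⟨x₀, hx₀⟩ := hne
  obtain ⟨f, hf1, hf2, hf3, hf4⟩ := exists_continuousMap_one_of_isCompact_subset_isOpen
    (isCompact_singleton (x := x₀)) hU (Set.singleton_subset_iff.mpr hx₀)
  refine ⟨f, f.continuous, hf2, fun x => (hf4 x).1, fun x hx => ?_, fun m hm => ?_⟩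
  · exact image_eq_zero_of_notMem_tsupport fun h => hx (hf3 h)
  · have hprob := hm.1
    have hint : Integrable (fun x => f x) m := by
      refine Integrable.of_bound (C := 1) f.continuous.aestronglyMeasurable ?_
      filter_upwards with x
      rw [Real.norm_eq_abs, abs_of_nonneg (hf4 x).1]
      exact (hf4 x).2
    rw [integral_pos_iff_support_of_nonneg (fun x => (hf4 x).1) hint]
    refine measure_pos_of_isOpen hm (f.continuous.isOpen_preimage _ isOpen_compl_singleton) ?_
    refine ⟨x₀, ?_⟩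
    have := hf1 (Set.mem_singleton x₀)
    change f x₀ ≠ 0
    rw [this]
    exact one_ne_zero

theorem integral_packetMeasure_eq_zero (S : TorusDatum n) {U : Set (X n)} (hU : IsOpen U)
    (h : ∀ B ∈ S.packet, Disjoint B U) {f : X n → ℝ} (hf : ∀ x, x ∉ U → f x = 0) :
    ∫ x, f x ∂S.packetMeasure = 0 := by
  have h0 := packetMeasure_eq_zero S hU h
  rw [integral_eq_zero_of_ae]
  have : ∀ᵐ x ∂S.packetMeasure, x ∉ U := measure_eq_zero_iff_ae_notMem.mp h0
  filter_upwards [this] with x hx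
  exact hf x hx

theorem necessary (S : ℕ → TorusDatum n) (m : Measure (X n)) (hm : IsInvariantProb m)
    (hconv : ConvergesWeaklyTo (fun i => (S i).packetMeasure) m) (C : ℝ) :
    ∀ᶠ i in atTop, ∀ α ∈ (S i).O, (∀ j, |(S i).σ j α| ≤ C) → ∃ z : ℤ, α = (z : (S i).K) := by
  by_contra hcon
  rw [Filter.not_eventually] at hcon
  obtain ⟨f, hf1, hf2, hf3, hf4, hf5⟩ :=
    exists_test_function (isOpen_goodOpen n C) (nonempty_goodOpen n C)
  have hlim := hconv.1 f hf1 hf2
  have hfreq : ∃ᶠ i in atTop, ∫ x, f x ∂(S i).packetMeasure = (fun _ : ℕ => (0 : ℝ)) i := by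
    refine hcon.mono fun i hi => ?_
    push Not at hi
    obtain ⟨α, hα, hαC, hαZ⟩ := hi
    exact integral_packetMeasure_eq_zero (S i) (isOpen_goodOpen n C)
      (disjoint_goodOpen (S i) hα (by push Not; exact hαZ) hαC) hf4
  have := tendsto_nhds_unique_of_frequently_eq hlim tendsto_const_nhds hfreq
  exact (hf5 m hm).ne' this

end Vale.Agent.P007
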