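import Vale.Agent.P007.Topo

open MeasureTheory Filter Topology Matrix

namespace Vale.Agent.P007

variable {n : ℕ}

def IntConj (d : Fin n → ℝ) (g : SLR n) : Prop :=
  ∃ M : Matrix (Fin n) (Fin n) ℤ,
    (g : Matrix (Fin n) (Fin n) ℝ) * diagonal d = M.map (Int.castRingHom ℝ) * g

theorem intConj_iff (d : Fin n → ℝ) (g : SLR n) :
    IntConj d g ↔ ∃ M : Matrix (Fin n) (Fin n) ℤ,
      (g : Matrix (Fin n) (Fin n) ℝ) * diagonal d * ((g⁻¹ : SLR n) : Matrix (Fin n) (Fin n) ℝ) =
        M.map (Int.castRingHom ℝ) := by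
  have h1 := cm_mul_inv g
  have h2 := cm_inv_mul g
  constructor
  · rintro ⟨M, hM⟩
    exact ⟨M, by rw [hM, mul_assoc, h1, mul_one]⟩
  · rintro ⟨M, hM⟩
    exact ⟨M, by rw [← hM, mul_assoc _ _ (g : Matrix (Fin n) (Fin n) ℝ), h2, mul_one]⟩

theorem isClosed_intMat : IsClosed (Set.range fun M : Matrix (Fin n) (Fin n) ℤ =>
    M.map (Int.castRingHom ℝ)) :=
  (isClosedEmbedding_intCast.matrix_map (m := Fin n) (n := Fin n)).isClosed_range

theorem isClosed_intConj (d : Fin n → ℝ) : IsClosed {g : SLR n | IntConj d g} := by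
  have hc : Continuous fun g : SLR n => (g : Matrix (Fin n) (Fin n) ℝ) * diagonal d *
      ((g⁻¹ : SLR n) : Matrix (Fin n) (Fin n) ℝ) := by
    exact (Continuous.matrix_mul cm_cont continuous_const).matrix_mul
      (cm_cont.comp continuous_inv)
  have := (isClosed_intMat (n := n)).preimage hc
  convert this using 1
  ext g
  simp only [Set.mem_ofPred_eq, intConj_iff, Set.mem_preimage, Set.mem_range]
  exact ⟨fun ⟨M, h⟩ => ⟨M, h.symm⟩, fun ⟨M, h⟩ => ⟨M, h.symm⟩⟩

theorem intConj_mul_left (d : Fin n → ℝ) {γ : SLR n} (hγ : γ ∈ SLZ n) {g : SLR n}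
    (hg : IntConj d g) : IntConj d (γ * g) := by
  obtain ⟨A, rfl⟩ := hγ
  rw [intConj_iff] at hg ⊢
  obtain ⟨M, hM⟩ := hg
  refine ⟨(A : Matrix (Fin n) (Fin n) ℤ) * M * ((A⁻¹ : SpecialLinearGroup (Fin n) ℤ) :
    Matrix (Fin n) (Fin n) ℤ), ?_⟩
  rw [Matrix.map_mul, Matrix.map_mul, ← hM, _root_.mul_inv_rev, ← map_inv, cm_mul, cm_mul,
    cm_map, cm_map]
  simp only [mul_assoc]

def goodSet (d : Fin n → ℝ) : Set (X n) := {x | ∀ g : SLR n, coset g = x → ¬ IntConj d g}

theorem coset_preimage_goodSet (d : Fin n → ℝ) :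
    coset ⁻¹' (goodSet d) = {g : SLR n | ¬ IntConj d g} := by
  ext g
  simp only [goodSet, Set.mem_preimage, Set.mem_ofPred_eq]
  constructor
  · intro h
    exact h g rfl
  · intro h g' hg' hcon
    obtain ⟨γ, hγ, hγ'⟩ := coset_eq_iff.mp hg'.symm
    exact h (hγ' ▸ intConj_mul_left d hγ hcon)

theorem isOpen_goodSet (d : Fin n → ℝ) : IsOpen (goodSet d) := by
  rw [← isOpenQuotientMap_coset.isQuotientMap.isOpen_preimage, coset_preimage_goodSet]
  exact (isClosed_intConj d).isOpen_compl

theorem dense_goodSet (d : Fin n → ℝ) (hd : ¬ ∃ r, ∀ j, d j = r) : Dense (goodSet d) := by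
  rw [← isOpenQuotientMap_coset.dense_preimage_iff, coset_preimage_goodSet]
  have hjk : ∃ j k, d j ≠ d k := by
    by_contra hcon
    push Not at hcon
    apply hd
    rcases isEmpty_or_nonempty (Fin n) with hE | ⟨⟨j⟩⟩
    · exact ⟨0, fun j => hE.elim j⟩
    · exact ⟨d j, fun k => hcon k j⟩
  obtain ⟨j, k, hdjk⟩ := hjk
  have hjk : j ≠ k := fun h => hdjk (h ▸ rfl)
  intro g
  by_cases hg : IntConj d g
  swap
  · exact subset_closure hg
  rw [intConj_iff] at hg
  obtain ⟨M, hM⟩ := hg
  let h : ℝ → SLR n := fun t => ⟨transvection j k t, det_transvection_of_ne j k hjk t⟩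
  have hinv : ∀ t, (h t)⁻¹ = h (-t) := by
    intro t
    rw [inv_eq_iff_mul_eq_one]
    apply cm_ext
    rw [cm_mul, cm_one]
    change transvection j k t * transvection j k (-t) = 1
    rw [transvection_mul_transvection_same _ _ hjk]
    simp
  have hcont : Continuous h := by
    refine Continuous.subtype_mk ?_ _
    unfold transvection
    refine continuous_const.add ?_
    refine continuous_matrix fun a b => ?_
    by_cases hab : j = a ∧ k = b
    · obtain ⟨rfl, rfl⟩ := hab
      simp only [Matrix.single_apply_same]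
      exact continuous_id
    · have : ∀ t : ℝ, Matrix.single j k t a b = 0 := fun t => by
        rw [Matrix.single_apply_of_ne]
        exact hab
      simp only [this]
      exact continuous_const
  have h0 : h 0 = 1 := by
    apply cm_ext
    change transvection j k (0 : ℝ) = 1
    simp
  have htend : Tendsto (fun t : ℝ => g * h t) (𝓝[≠] 0) (𝓝 g) := by
    have : Tendsto (fun t : ℝ => g * h t) (𝓝 0) (𝓝 (g * h 0)) :=
      (continuous_const.mul hcont).tendsto 0
    rw [h0, mul_one] at this
    exact this.mono_left nhdsWithin_le_nhds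
  refine mem_closure_of_tendsto htend ?_
  set E : Matrix (Fin n) (Fin n) ℝ := (g : Matrix (Fin n) (Fin n) ℝ) * Matrix.single j k 1 *
    ((g⁻¹ : SLR n) : Matrix (Fin n) (Fin n) ℝ) with hE
  have hgg := cm_inv_mul g
  have hE0 : E ≠ 0 := by
    intro hcon
    have : ((g⁻¹ : SLR n) : Matrix (Fin n) (Fin n) ℝ) * E * (g : Matrix (Fin n) (Fin n) ℝ) =
        Matrix.single j k 1 := by
      rw [hE]
      calc _ = (((g⁻¹ : SLR n) : Matrix (Fin n) (Fin n) ℝ) * (g : Matrix (Fin n) (Fin n) ℝ)) *
            Matrix.single j k 1 * (((g⁻¹ : SLR n) : Matrix (Fin n) (Fin n) ℝ) *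
              (g : Matrix (Fin n) (Fin n) ℝ)) := by simp only [mul_assoc]
        _ = _ := by rw [hgg, one_mul, mul_one]
    rw [hcon, mul_zero, zero_mul] at this
    have h3 := congrFun (congrFun this j) k
    simp at h3
  obtain ⟨a, b, hab⟩ : ∃ a b, E a b ≠ 0 := by
    by_contra hcon
    push Not at hcon
    exact hE0 (Matrix.ext hcon)
  have hconj : ∀ t : ℝ, ((g * h t : SLR n) : Matrix (Fin n) (Fin n) ℝ) * diagonal d *
      (((g * h t)⁻¹ : SLR n) : Matrix (Fin n) (Fin n) ℝ) =
      M.map (Int.castRingHom ℝ) + (t * (d k - d j)) • E := by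
    intro t
    rw [_root_.mul_inv_rev, hinv, cm_mul, cm_mul, ← hM, hE]
    change (g : Matrix (Fin n) (Fin n) ℝ) * transvection j k t * diagonal d *
      (transvection j k (-t) * ((g⁻¹ : SLR n) : Matrix (Fin n) (Fin n) ℝ)) = _
    have key : transvection j k t * diagonal d * transvection j k (-t) =
        diagonal d + (t * (d k - d j)) • Matrix.single j k 1 := by
      unfold transvection
      have e1 : Matrix.single j k t * diagonal d = Matrix.single j k (t * d k) := by
        ext a b
        rw [Matrix.mul_diagonal]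
        by_cases hab : j = a ∧ k = b
        · obtain ⟨rfl, rfl⟩ := hab
          simp
        · rw [Matrix.single_apply_of_ne _ _ _ _ _ hab, Matrix.single_apply_of_ne _ _ _ _ _ hab,
            zero_mul]
      have e2 : diagonal d * Matrix.single j k (-t) = Matrix.single j k (-(d j * t)) := by
        ext a b
        rw [Matrix.diagonal_mul]
        by_cases hab : j = a ∧ k = b
        · obtain ⟨rfl, rfl⟩ := hab
          simp
        · rw [Matrix.single_apply_of_ne _ _ _ _ _ hab, Matrix.single_apply_of_ne _ _ _ _ _ hab,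
            mul_zero]
      have e3 : Matrix.single j k (t * d k) * Matrix.single j k (-t) = 0 := by
        rw [Matrix.single_mul_single_of_ne]
        exact hjk.symm
      rw [add_mul, one_mul, e1, mul_add, mul_one, add_mul, e2, e3, add_zero]
      ext a b
      simp only [Matrix.add_apply, Matrix.smul_apply, smul_eq_mul]
      by_cases hab : j = a ∧ k = b
      · obtain ⟨rfl, rfl⟩ := hab
        simp
        ring
      · rw [Matrix.single_apply_of_ne _ _ _ _ _ hab, Matrix.single_apply_of_ne _ _ _ _ _ hab,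
          Matrix.single_apply_of_ne _ _ _ _ _ hab]
        ring
    calc _ = (g : Matrix (Fin n) (Fin n) ℝ) * (transvection j k t * diagonal d *
          transvection j k (-t)) * ((g⁻¹ : SLR n) : Matrix (Fin n) (Fin n) ℝ) := by
            simp only [mul_assoc]
      _ = _ := by
            rw [key, mul_add, add_mul, Matrix.mul_smul, Matrix.smul_mul]
  have hsmall : ∀ᶠ t : ℝ in 𝓝[≠] 0, |t * (d k - d j) * E a b| < 1 ∧
      t * (d k - d j) * E a b ≠ 0 := by
    refine Filter.Eventually.and ?_ ?_
    · have : Tendsto (fun t : ℝ => |t * (d k - d j) * E a b|) (𝓝[≠] 0) (𝓝 0) := by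
        have hc : Continuous fun t : ℝ => |t * (d k - d j) * E a b| := by fun_prop
        have := hc.tendsto 0
        simp only [zero_mul, abs_zero] at this
        exact this.mono_left nhdsWithin_le_nhds
      exact this.eventually (gt_mem_nhds one_pos)
    · filter_upwards [self_mem_nhdsWithin] with t ht
      exact mul_ne_zero (mul_ne_zero ht (sub_ne_zero.mpr hdjk.symm)) hab
  filter_upwards [hsmall] with t ht
  intro hcon
  rw [intConj_iff] at hcon
  obtain ⟨N, hN⟩ := hcon
  rw [hconj t] at hN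
  have h4 := congrFun (congrFun hN a) b
  simp only [Matrix.add_apply, Matrix.smul_apply, smul_eq_mul, Matrix.map_apply,
    Int.coe_castRingHom] at h4
  have h5 : t * (d k - d j) * E a b = ((N a b - M a b : ℤ) : ℝ) := by
    push_cast
    linarith
  rw [h5] at ht
  obtain ⟨h6, h7⟩ := ht
  rw [← Int.cast_abs] at h6
  have h8 : |N a b - M a b| < 1 := by exact_mod_cast h6
  rw [Int.abs_lt_one_iff] at h8
  exact h7 (by rw [h8]; simp)

end Vale.Agent.P007
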