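import Vale.Agent.P007.Composite

open MeasureTheory Filter Topology Matrix

namespace Vale.Agent.P007

variable {n : ℕ}

theorem fullCoord_add (u v : Fin (n - 1) → ℝ) (j : Fin n) :
    fullCoord (u + v) j = fullCoord u j + fullCoord v j := by
  unfold fullCoord
  split_ifs
  · rfl
  · simp only [Pi.add_apply, Finset.sum_add_distrib, neg_add]

theorem fullCoord_zero (j : Fin n) : fullCoord (0 : Fin (n - 1) → ℝ) j = 0 := by
  unfold fullCoord
  split_ifs <;> simp

theorem diagA_add (u v : Fin (n - 1) → ℝ) : diagA (u + v) = (diagA u * diagA v : SLR n) := by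
  apply cm_ext
  rw [cm_mul]
  change diagonal _ = diagonal _ * diagonal _
  rw [Matrix.diagonal_mul_diagonal]
  congr 1
  ext j
  rw [fullCoord_add, Real.exp_add]

theorem diagA_zero : diagA (0 : Fin (n - 1) → ℝ) = (1 : SLR n) := by
  apply cm_ext
  rw [cm_one]
  change diagonal _ = 1
  rw [← Matrix.diagonal_one]
  congr 1
  ext j
  rw [fullCoord_zero, Real.exp_zero]

theorem eq_zero_of_diagA_eq_one {u : Fin (n - 1) → ℝ} (h : (diagA u : SLR n) = 1) : u = 0 := by
  ext i
  have h1 : (i : ℕ) < n := by omega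
  have h2 : ((diagA u : SLR n) : Matrix (Fin n) (Fin n) ℝ) ⟨i, h1⟩ ⟨i, h1⟩ = 1 := by
    rw [h, cm_one, Matrix.one_apply_eq]
  have h3 : ((diagA u : SLR n) : Matrix (Fin n) (Fin n) ℝ) ⟨i, h1⟩ ⟨i, h1⟩ =
      Real.exp (fullCoord u ⟨i, h1⟩) := by
    change diagonal _ _ _ = _
    rw [Matrix.diagonal_apply_eq]
  rw [h3, Real.exp_eq_one_iff] at h2
  unfold fullCoord at h2
  rw [dif_pos (by exact i.2)] at h2
  exact h2

theorem orbitMap_add (x : X n) (u v : Fin (n - 1) → ℝ) :
    orbitMap x (u + v) = orbitMap (orbitMap x u) v := by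
  unfold orbitMap
  rw [act_act, diagA_add]

theorem orbitMap_zero (x : X n) : orbitMap x 0 = x := by
  unfold orbitMap
  rw [diagA_zero, act_one]

theorem orbitMap_coset (g : SLR n) (u : Fin (n - 1) → ℝ) :
    orbitMap (coset g) u = coset (g * diagA u) := rfl

def stab (x : X n) : Submodule ℤ (Fin (n - 1) → ℝ) where
  carrier := {u | orbitMap x u = x}
  zero_mem' := orbitMap_zero x
  add_mem' := by
    intro u v hu hv
    change orbitMap x (u + v) = x
    rw [orbitMap_add, show orbitMap x u = x from hu, show orbitMap x v = x from hv]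
  smul_mem' := by
    intro c u hu
    have hu' : orbitMap x u = x := hu
    have hneg : orbitMap x (-u) = x := by
      have h1 : orbitMap (orbitMap x u) (-u) = x := by
        rw [← orbitMap_add, add_neg_cancel, orbitMap_zero]
      rwa [hu'] at h1
    have hnat : ∀ (k : ℕ) (v : Fin (n - 1) → ℝ), orbitMap x v = x → orbitMap x (k • v) = x := by
      intro k v hv
      induction k with
      | zero => rw [zero_smul, orbitMap_zero]
      | succ k ih => rw [succ_nsmul, orbitMap_add, ih, hv]
    change orbitMap x (c • u) = x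
    rcases Int.eq_nat_or_neg c with ⟨k, rfl | rfl⟩
    · rw [natCast_zsmul]
      exact hnat k u hu'
    · rw [neg_smul, natCast_zsmul, ← smul_neg]
      exact hnat k (-u) hneg

theorem mem_stab {x : X n} {u : Fin (n - 1) → ℝ} : u ∈ stab x ↔ orbitMap x u = x := Iff.rfl

theorem stab_orbitMap (x : X n) (v : Fin (n - 1) → ℝ) : stab (orbitMap x v) = stab x := by
  ext u
  rw [mem_stab, mem_stab, ← orbitMap_add, add_comm, orbitMap_add]
  constructor
  · intro h
    have h2 := congrArg (fun y => orbitMap y (-v)) h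
    simp only [← orbitMap_add, add_neg_cancel, add_assoc, add_zero, orbitMap_zero] at h2
    exact h2
  · intro h
    rw [h]

theorem discreteTopology_SLZ : DiscreteTopology (SLZ n) := by
  have h1 : IsClosedEmbedding (SpecialLinearGroup.map (n := Fin n) (Int.castRingHom ℝ)) :=
    isClosedEmbedding_intCast.specialLinearGroup_map
  exact h1.isEmbedding.toHomeomorph.symm.isEmbedding.discreteTopology

instance discreteTopology_stab (x : X n) : DiscreteTopology (stab x) := by
  obtain ⟨g, rfl⟩ := coset_surjective x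
  have hd := discreteTopology_SLZ (n := n)
  obtain ⟨V, hV, hV1⟩ := isOpen_induced_iff.mp (isOpen_discrete ({1} : Set (SLZ n)))
  have hφ : Continuous fun u : Fin (n - 1) → ℝ => g * diagA u * g⁻¹ :=
    (continuous_const.mul continuous_diagA).mul continuous_const
  rw [discreteTopology_iff_isOpen_singleton_zero, isOpen_induced_iff]
  refine ⟨(fun u : Fin (n - 1) → ℝ => g * diagA u * g⁻¹) ⁻¹' V, hV.preimage hφ, ?_⟩
  ext ⟨u, hu⟩
  simp only [Set.mem_preimage, Set.mem_singleton_iff]
  constructor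
  · intro h
    rw [mem_stab, orbitMap_coset] at hu
    obtain ⟨γ, hγ, h2⟩ := coset_eq_iff.mp hu
    have h3 : g * diagA u * g⁻¹ = γ := by rw [← h2]; group
    rw [h3] at h
    have h4 : (⟨γ, hγ⟩ : SLZ n) ∈ ({1} : Set (SLZ n)) := by
      rw [← hV1]; exact h
    have h5 : γ = 1 := congrArg Subtype.val (Set.mem_singleton_iff.mp h4)
    rw [h5] at h3
    have h6 : (diagA u : SLR n) = 1 := by
      have : g * diagA u = g := by
        calc g * diagA u = (g * diagA u * g⁻¹) * g := by group
          _ = g := by rw [h3, one_mul]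
      exact mul_eq_left.mp this
    exact Subtype.ext (eq_zero_of_diagA_eq_one h6)
  · intro h
    have h0 : u = 0 := congrArg Subtype.val h
    have h1 : (1 : SLZ n) ∈ (Subtype.val ⁻¹' V : Set (SLZ n)) := by
      rw [hV1]; rfl
    have h2 : (1 : SLR n) ∈ V := h1
    rw [h0, diagA_zero, mul_one, mul_inv_cancel]
    exact h2

theorem coset_eq_of_rowLattice_subset {g g' : SLR n} (h : rowLattice g' ⊆ rowLattice g) :
    coset g' = coset g := by
  have hrow : ∀ i : Fin n, ∃ z : Fin n → ℤ,
      (fun k => (z k : ℝ)) ᵥ* (g : Matrix (Fin n) (Fin n) ℝ) =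
        fun j => (g' : Matrix (Fin n) (Fin n) ℝ) i j := fun i => h (row_mem_rowLattice g' i)
  choose z hz using hrow
  have hM : (Matrix.of z).map (Int.castRingHom ℝ) * (g : Matrix (Fin n) (Fin n) ℝ) =
      (g' : Matrix (Fin n) (Fin n) ℝ) := by
    ext i j
    exact congrFun (hz i) j
  have hdet : (Matrix.of z).det = 1 := by
    have h1 := congrArg Matrix.det hM
    have hg : (g : Matrix (Fin n) (Fin n) ℝ).det = 1 := g.2
    have hg' : (g' : Matrix (Fin n) (Fin n) ℝ).det = 1 := g'.2
    rw [Matrix.det_mul, hg, hg', mul_one, ← RingHom.mapMatrix_apply, ← RingHom.map_det] at h1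
    have h2 : ((Matrix.of z).det : ℝ) = 1 := h1
    exact_mod_cast h2
  rw [coset_eq_iff]
  refine ⟨SpecialLinearGroup.map (Int.castRingHom ℝ) ⟨Matrix.of z, hdet⟩, ⟨_, rfl⟩, ?_⟩
  apply cm_ext
  rw [cm_mul]
  exact hM

theorem mem_rowLattice_mul_diagA {g : SLR n} {u : Fin (n - 1) → ℝ} {v : Fin n → ℝ} :
    v ∈ rowLattice (g * diagA u) ↔
      ∃ v' ∈ rowLattice g, v = fun j => v' j * Real.exp (fullCoord u j) := by
  have key : ∀ z : Fin n → ℤ, (fun i => (z i : ℝ)) ᵥ* ((g * diagA u : SLR n) :
      Matrix (Fin n) (Fin n) ℝ) =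
      fun j => ((fun i => (z i : ℝ)) ᵥ* (g : Matrix (Fin n) (Fin n) ℝ)) j *
        Real.exp (fullCoord u j) := by
    intro z
    rw [cm_mul, ← Matrix.vecMul_vecMul]
    ext j
    change (_ ᵥ* diagonal _) j = _
    rw [Matrix.vecMul_diagonal]
  constructor
  · rintro ⟨z, rfl⟩
    exact ⟨_, ⟨z, rfl⟩, key z⟩
  · rintro ⟨v', ⟨z, rfl⟩, rfl⟩
    exact ⟨z, key z⟩

end Vale.Agent.P007
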