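import Vale.Agent.P007.Prob1

open MeasureTheory Filter Topology Matrix

namespace Vale.Agent.P007

variable {n : ℕ}

theorem fullCoord_of_sum_zero {t : Fin n → ℝ} (h : ∑ j, t j = 0) (hn : 0 < n) (j : Fin n) :
    fullCoord (fun i : Fin (n - 1) => t ⟨i, by omega⟩) j = t j := by
  obtain ⟨m, rfl⟩ : ∃ m, n = m + 1 := ⟨n - 1, by omega⟩
  unfold fullCoord
  split_ifs with hj
  · rfl
  · rw [Fin.sum_univ_castSucc] at h
    have hj' : j = Fin.last m := by
      apply Fin.ext
      simp only [Fin.val_last]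
      omega
    rw [hj']
    have : ∑ i : Fin (m + 1 - 1), t ⟨i, by omega⟩ = ∑ i : Fin m, t i.castSucc := rfl
    rw [this]
    linarith

theorem exists_orbitMap_eq {g g' : SLR n} {t : Fin n → ℝ} (ht : ∀ j, 0 < t j)
    (h : rowLattice g' = {v | ∃ v' ∈ rowLattice g, v = fun j => v' j * t j}) (hn : 0 < n) :
    ∃ u, orbitMap (coset g) u = coset g' := by
  have hrow : ∀ i : Fin n, ∃ z : Fin n → ℤ,
      (fun j => ((fun k => (z k : ℝ)) ᵥ* (g : Matrix (Fin n) (Fin n) ℝ)) j * t j) =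
        fun j => (g' : Matrix (Fin n) (Fin n) ℝ) i j := by
    intro i
    have h1 := row_mem_rowLattice g' i
    rw [h] at h1
    obtain ⟨v', ⟨z, rfl⟩, hv⟩ := h1
    exact ⟨z, hv.symm⟩
  choose z hz using hrow
  have hrow' : ∀ i : Fin n, ∃ z : Fin n → ℤ,
      (fun k => (z k : ℝ)) ᵥ* (g' : Matrix (Fin n) (Fin n) ℝ) =
        fun j => (g : Matrix (Fin n) (Fin n) ℝ) i j * t j := by
    intro i
    have h1 : (fun j => (g : Matrix (Fin n) (Fin n) ℝ) i j * t j) ∈ rowLattice g' := by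
      rw [h]
      exact ⟨_, row_mem_rowLattice g i, rfl⟩
    exact h1
  choose z' hz' using hrow'
  have hM : (Matrix.of z).map (Int.castRingHom ℝ) * (g : Matrix (Fin n) (Fin n) ℝ) *
      diagonal t = (g' : Matrix (Fin n) (Fin n) ℝ) := by
    ext i j
    rw [Matrix.mul_diagonal]
    exact congrFun (hz i) j
  have hN : (Matrix.of z').map (Int.castRingHom ℝ) * (g' : Matrix (Fin n) (Fin n) ℝ) =
      (g : Matrix (Fin n) (Fin n) ℝ) * diagonal t := by
    ext i j
    rw [Matrix.mul_diagonal]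
    exact congrFun (hz' i) j
  have hg : (g : Matrix (Fin n) (Fin n) ℝ).det = 1 := g.2
  have hg' : (g' : Matrix (Fin n) (Fin n) ℝ).det = 1 := g'.2
  have h1 := congrArg Matrix.det hM
  have h2 := congrArg Matrix.det hN
  rw [Matrix.det_mul, Matrix.det_mul, hg, hg', mul_one, ← RingHom.mapMatrix_apply,
    ← RingHom.map_det, Matrix.det_diagonal] at h1
  rw [Matrix.det_mul, Matrix.det_mul, hg, hg', mul_one, one_mul, ← RingHom.mapMatrix_apply,
    ← RingHom.map_det, Matrix.det_diagonal] at h2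
  have h3 : ((Matrix.of z).det : ℝ) * ∏ j, t j = 1 := h1
  have h4 : ((Matrix.of z').det : ℝ) = ∏ j, t j := h2
  have hpos : 0 < ∏ j, t j := Finset.prod_pos fun j _ => ht j
  have h5 : (Matrix.of z).det * (Matrix.of z').det = 1 := by
    rw [← h4] at h3
    exact_mod_cast h3
  have h6 : (0 : ℤ) < (Matrix.of z').det := by
    rw [← h4] at hpos
    exact_mod_cast hpos
  have h7 : (Matrix.of z').det = 1 := by
    have := Int.isUnit_iff.mp (IsUnit.of_mul_eq_one _ (by rw [mul_comm]; exact h5) : IsUnit (Matrix.of z').det)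
    omega
  have hprod : ∏ j, t j = 1 := by
    rw [← h4, h7]; norm_num
  have hsum : ∑ j, Real.log (t j) = 0 := by
    rw [← Real.log_prod (fun j _ => (ht j).ne'), hprod, Real.log_one]
  refine ⟨fun i : Fin (n - 1) => Real.log (t ⟨i, by omega⟩), ?_⟩
  rw [orbitMap_coset]
  apply coset_eq_of_rowLattice_subset
  intro v hv
  rw [mem_rowLattice_mul_diagA] at hv
  obtain ⟨v', hv', rfl⟩ := hv
  rw [h]
  refine ⟨v', hv', ?_⟩
  ext j
  rw [fullCoord_of_sum_zero (t := fun j => Real.log (t j)) hsum hn j, Real.exp_log (ht j)]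

end Vale.Agent.P007
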