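import Vale.Agent.P007.Prob2

open MeasureTheory Filter Topology Matrix NumberField

namespace Vale.Agent.P007

variable {n : ℕ}

theorem exists_placeEquiv (S : TorusDatum n) :
    ∃ e : Fin n ≃ InfinitePlace S.K, ∀ j, (e j).mult = 1 ∧ ∀ x, (e j) x = |S.σ j x| := by
  have hreal : ∀ j, ComplexEmbedding.IsReal (Complex.ofRealHom.comp (S.σ j)) := by
    intro j
    rw [ComplexEmbedding.isReal_iff]
    ext x
    change (starRingEnd ℂ) ((S.σ j x : ℝ) : ℂ) = _
    rw [Complex.conj_ofReal]
    rfl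
  let f : Fin n → InfinitePlace S.K := fun j => InfinitePlace.mk (Complex.ofRealHom.comp (S.σ j))
  have hinj : Function.Injective f := by
    intro i j hij
    have h1 := InfinitePlace.mk_eq_iff.mp hij
    have h2 : Complex.ofRealHom.comp (S.σ i) = Complex.ofRealHom.comp (S.σ j) := by
      rcases h1 with h | h
      · exact h
      · rwa [(ComplexEmbedding.isReal_iff.mp (hreal i))] at h
    apply S.σ.injective
    ext x
    have := RingHom.congr_fun h2 x
    exact Complex.ofReal_injective this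
  have hcard : Nat.card (InfinitePlace S.K) ≤ Nat.card (Fin n) := by
    have h1 := InfinitePlace.card_eq_nrRealPlaces_add_nrComplexPlaces S.K
    have h2 := InfinitePlace.card_add_two_mul_card_eq_rank S.K
    have h3 := S.finrank_eq
    rw [Nat.card_eq_fintype_card, h1, Nat.card_eq_fintype_card, Fintype.card_fin]
    omega
  refine ⟨Equiv.ofBijective f (hinj.bijective_of_nat_card_le hcard), fun j => ⟨?_, fun x => ?_⟩⟩
  · change (InfinitePlace.mk _).mult = 1
    exact InfinitePlace.IsReal.mult_eq_one (InfinitePlace.isReal_mk_iff.mpr (hreal j))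
  · change ‖((S.σ j x : ℝ) : ℂ)‖ = _
    rw [Complex.norm_real, Real.norm_eq_abs]

theorem unit_mem (S : TorusDatum n) (hS : S.O = S.maximalOrder) (ε : (𝓞 S.K)ˣ) :
    ((ε : 𝓞 S.K) : S.K) ∈ S.O := by
  rw [hS]
  exact (ε : 𝓞 S.K).2

noncomputable def unitVec (S : TorusDatum n) (ε : (𝓞 S.K)ˣ) : Fin n → ℝ :=
  fun j => Real.log (S.σ j ((ε : 𝓞 S.K) : S.K) ^ 2)

theorem sum_unitVec (S : TorusDatum n) (ε : (𝓞 S.K)ˣ) : ∑ j, unitVec S ε j = 0 := by
  obtain ⟨e, he⟩ := exists_placeEquiv S
  have h1 := Units.sum_mult_mul_log ε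
  rw [← e.sum_comp] at h1
  have h2 : ∀ j, unitVec S ε j = 2 * (((e j).mult : ℝ) * Real.log ((e j) ((ε : 𝓞 S.K) : S.K))) := by
    intro j
    unfold unitVec
    rw [(he j).1, (he j).2, Real.log_pow, Real.log_abs]
    push_cast
    ring
  simp only [h2]
  rw [← Finset.mul_sum, h1, mul_zero]

theorem unitVec_mem_stab (S : TorusDatum n) (hS : S.O = S.maximalOrder) {I : AddSubgroup S.K}
    (hI : S.IsFractionalIdeal I) {w : Fin n → ℤˣ} {g : SLR n} (hg : S.Represents I w g)
    (ε : (𝓞 S.K)ˣ) :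
    (fun i : Fin (n - 1) => unitVec S ε ⟨i, by omega⟩) ∈ stab (coset g) := by
  have hn : 0 < n := Nat.pos_of_ne_zero (neZero_of_datum S).out
  rw [mem_stab, orbitMap_coset]
  apply coset_eq_of_rowLattice_subset
  intro v hv
  rw [mem_rowLattice_mul_diagA] at hv
  obtain ⟨v', hv', rfl⟩ := hv
  obtain ⟨c, hc, hL⟩ := hg
  rw [hL] at hv' ⊢
  obtain ⟨x, hx, rfl⟩ := hv'
  have hε := unit_mem S hS ε
  refine ⟨((ε : 𝓞 S.K) : S.K) * (((ε : 𝓞 S.K) : S.K) * x), hI.mul_mem _ hε _ (hI.mul_mem _ hε _ hx), ?_⟩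
  ext j
  have hne : S.σ j ((ε : 𝓞 S.K) : S.K) ≠ 0 := by
    rw [map_ne_zero]
    exact Units.coe_ne_zero ε
  rw [fullCoord_of_sum_zero (sum_unitVec S ε) hn j]
  unfold unitVec
  rw [Real.exp_log (by positivity), map_mul, map_mul]
  ring

theorem span_stab_eq_top (S : TorusDatum n) (hS : S.O = S.maximalOrder) {I : AddSubgroup S.K}
    (hI : S.IsFractionalIdeal I) {w : Fin n → ℤˣ} {g : SLR n} (hg : S.Represents I w g) :
    Submodule.span ℝ (stab (coset g) : Set (Fin (n - 1) → ℝ)) = ⊤ := by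
  classical
  have hn : 0 < n := Nat.pos_of_ne_zero (neZero_of_datum S).out
  obtain ⟨e, he⟩ := exists_placeEquiv S
  by_contra hcon
  obtain ⟨f, hf0, hf⟩ := Submodule.exists_le_ker_of_lt_top _ (lt_top_iff_ne_top.mpr hcon)
  apply hf0
  let j₀ : Fin n := ⟨n - 1, by omega⟩
  let w' : InfinitePlace S.K := e j₀
  have hcard : Fintype.card {w // w ≠ w'} = Units.rank S.K := by
    rw [Fintype.card_subtype_compl, Fintype.card_subtype_eq]
    rfl
  let e' : {w // w ≠ w'} ≃ Fin (Units.rank S.K) := Fintype.equivFinOfCardEq hcard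
  have hreg := Units.regulator_eq_det (K := S.K) w' e'
  have hdet : (Matrix.of fun i w : {w // w ≠ w'} ↦ (InfinitePlace.mult w.val : ℝ) *
        Real.log (w.val (Units.fundSystem S.K (e' i) : S.K))).det ≠ 0 := by
    intro h
    rw [h, abs_zero] at hreg
    exact Units.regulator_ne_zero S.K hreg
  let idx : {w // w ≠ w'} ≃ Fin (n - 1) :=
    { toFun := fun w => ⟨e.symm w.1, by
        have h1 : e.symm w.1 ≠ j₀ := fun h => w.2 ((Equiv.symm_apply_eq e).mp h)
        have h2 : (e.symm w.1 : ℕ) ≠ n - 1 := fun h => h1 (Fin.ext h)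
        omega⟩
      invFun := fun i => ⟨e ⟨i, by omega⟩, fun h => by
        have h1 := congrArg Fin.val (e.injective h)
        change (i : ℕ) = n - 1 at h1
        omega⟩
      left_inv := fun w => by
        apply Subtype.ext
        simp
      right_inv := fun i => by
        apply Fin.ext
        simp }
  have hf1 : ∀ ε : (𝓞 S.K)ˣ, ∑ i : Fin (n - 1), unitVec S ε ⟨i, by omega⟩ * f (Pi.single i 1) = 0 := by
    intro ε
    have h1 := hf (Submodule.subset_span (unitVec_mem_stab S hS hI hg ε))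
    rw [LinearMap.mem_ker] at h1
    rw [LinearMap.pi_apply_eq_sum_univ] at h1
    rw [← h1]
    refine Finset.sum_congr rfl fun i _ => ?_
    rw [smul_eq_mul]
    congr 2
    ext j
    rw [Pi.single_apply]
    simp only [eq_comm]
  have hv : (fun w : {w // w ≠ w'} => f (Pi.single (idx w) 1)) = 0 := by
    apply Matrix.eq_zero_of_mulVec_eq_zero hdet
    ext i
    rw [Matrix.mulVec, dotProduct, Pi.zero_apply]
    have h1 := hf1 (Units.fundSystem S.K (e' i))
    rw [← idx.sum_comp] at h1
    have h2 : ∀ w : {w // w ≠ w'}, unitVec S (Units.fundSystem S.K (e' i)) ⟨idx w, by omega⟩ *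
        f (Pi.single (idx w) 1) = 2 * ((Matrix.of fun i w : {w // w ≠ w'} ↦
          (InfinitePlace.mult w.val : ℝ) *
            Real.log (w.val (Units.fundSystem S.K (e' i) : S.K))) i w *
            f (Pi.single (idx w) 1)) := by
      intro w
      have h3 : e ⟨idx w, by omega⟩ = w.1 := by
        change e ⟨(e.symm w.1 : ℕ), _⟩ = w.1
        simp
      have h4 := he ⟨idx w, by omega⟩
      rw [h3] at h4
      rw [Matrix.of_apply, h4.1, h4.2]
      unfold unitVec
      rw [Real.log_pow, Real.log_abs]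
      push_cast
      ring
    rw [Finset.sum_congr rfl fun w _ => h2 w, ← Finset.mul_sum] at h1
    linarith
  apply LinearMap.pi_ext'
  intro i
  apply LinearMap.ext_ring
  have h1 := congrFun hv (idx.symm i)
  simpa using h1

end Vale.Agent.P007
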