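import Vale.Agent.P007.Prob3

open MeasureTheory Filter Topology Matrix NumberField

namespace Vale.Agent.P007

variable {n : ℕ}

theorem exists_domain {m : ℕ} (L : Submodule ℤ (Fin m → ℝ)) [DiscreteTopology L]
    (hspan : Submodule.span ℝ (L : Set (Fin m → ℝ)) = ⊤) :
    ∃ D : Set (Fin m → ℝ), MeasurableSet D ∧ volume D ≠ 0 ∧ volume D ≠ ⊤ ∧
      ∀ u : Fin m → ℝ, ∃! v : L, v +ᵥ u ∈ D := by
  have hL : IsZLattice ℝ L := ⟨hspan⟩
  have hfree : Module.Free ℤ L := ZLattice.module_free ℝ L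
  have hfin : Module.Finite ℤ L := ZLattice.module_finite ℝ L
  let b := (Module.Free.chooseBasis ℤ L).ofZLatticeBasis ℝ L
  have hb : Submodule.span ℤ (Set.range b) = L :=
    (Module.Free.chooseBasis ℤ L).ofZLatticeBasis_span ℝ
  refine ⟨ZSpan.fundamentalDomain b, ZSpan.fundamentalDomain_measurableSet b,
    ZSpan.measure_fundamentalDomain_ne_zero b,
    (ZSpan.fundamentalDomain_isBounded b).measure_lt_top.ne, fun u => ?_⟩
  have h := ZSpan.exist_unique_vadd_mem_fundamentalDomain b u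
  obtain ⟨v, hv, huniq⟩ := h
  refine ⟨⟨v.1, hb.le v.2⟩, hv, fun y hy => ?_⟩
  have h2 : y.1 = v.1 := congrArg Subtype.val (huniq ⟨y.1, hb.ge y.2⟩ hy)
  exact Subtype.ext h2

theorem volume_eq_of_domains {m : ℕ} (L : Submodule ℤ (Fin m → ℝ)) [DiscreteTopology L]
    (hspan : Submodule.span ℝ (L : Set (Fin m → ℝ)) = ⊤) {D D' : Set (Fin m → ℝ)}
    (hD : MeasurableSet D) (hD' : MeasurableSet D')
    (h : ∀ u : Fin m → ℝ, ∃! v : L, v +ᵥ u ∈ D) (h' : ∀ u : Fin m → ℝ, ∃! v : L, v +ᵥ u ∈ D') :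
    volume D = volume D' := by
  have hL : IsZLattice ℝ L := ⟨hspan⟩
  have h1 : IsAddFundamentalDomain L D volume := IsAddFundamentalDomain.mk' hD.nullMeasurableSet h
  have h2 : IsAddFundamentalDomain L D' volume := IsAddFundamentalDomain.mk' hD'.nullMeasurableSet h'
  have : VAddInvariantMeasure L (Fin m → ℝ) volume :=
    inferInstanceAs (VAddInvariantMeasure L.toAddSubgroup (Fin m → ℝ) volume)
  exact h1.measure_eq h2

theorem orbitMap_eq_iff {x : X n} {u v : Fin (n - 1) → ℝ} :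
    orbitMap x u = orbitMap x v ↔ v - u ∈ stab x := by
  rw [mem_stab]
  constructor
  · intro h
    have h2 := congrArg (fun y => orbitMap y (-u)) h
    simp only [← orbitMap_add, add_neg_cancel, orbitMap_zero] at h2
    rw [sub_eq_add_neg]
    exact h2.symm
  · intro h
    have h2 := congrArg (fun y => orbitMap y u) h
    simp only [← orbitMap_add, sub_add_cancel] at h2
    exact h2.symm

theorem domain_of_pair {x : X n} {p : X n × Set (Fin (n - 1) → ℝ)}
    (hp : IsFundamentalPair (orbitA x) p) :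
    stab p.1 = stab x ∧ ∀ u : Fin (n - 1) → ℝ, ∃! v : stab x, v +ᵥ u ∈ p.2 := by
  obtain ⟨hmeas, hmaps, hinj, hsurj⟩ := hp
  have hx : x ∈ orbitA x := ⟨0, orbitMap_zero x⟩
  obtain ⟨u₀, hu₀, hxu⟩ := hsurj hx
  have hst : stab p.1 = stab x := by
    rw [← hxu, stab_orbitMap]
  have horb : ∀ u, orbitMap p.1 u ∈ orbitA x := by
    intro u
    refine ⟨u - u₀, ?_⟩
    rw [← hxu, ← orbitMap_add]
    congr 1
    abel
  refine ⟨hst, fun u => ?_⟩
  obtain ⟨u', hu', hxu'⟩ := hsurj (horb u)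
  have h1 : u - u' ∈ stab p.1 := orbitMap_eq_iff.mp hxu'
  have h2 : u' - u ∈ stab x := by
    rw [← hst]
    have := neg_mem h1
    rwa [neg_sub] at this
  refine ⟨⟨u' - u, h2⟩, ?_, ?_⟩
  · change (u' - u) + u ∈ p.2
    rwa [sub_add_cancel]
  · rintro ⟨y, hy⟩ hyu
    have hyu' : y + u ∈ p.2 := hyu
    have h3 : orbitMap p.1 (y + u) = orbitMap p.1 u' := by
      rw [hxu']
      apply Eq.symm
      rw [orbitMap_eq_iff, hst]
      rwa [add_sub_cancel_right]
    have h4 := hinj hyu' hu' h3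
    apply Subtype.ext
    change y = u' - u
    rw [← h4, add_sub_cancel_right]

theorem isFundamentalPair_of_domain {x : X n} {D : Set (Fin (n - 1) → ℝ)} (hD : MeasurableSet D)
    (h : ∀ u : Fin (n - 1) → ℝ, ∃! v : stab x, v +ᵥ u ∈ D) :
    IsFundamentalPair (orbitA x) (x, D) := by
  refine ⟨hD, fun u _ => ⟨u, rfl⟩, ?_, ?_⟩
  · intro u hu v hv huv
    have h1 : v - u ∈ stab x := orbitMap_eq_iff.mp huv
    obtain ⟨w, hw, huniq⟩ := h u
    have h2 := huniq ⟨v - u, h1⟩ (by change (v - u) + u ∈ D; rwa [sub_add_cancel])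
    have h3 := huniq 0 (by change (0 : Fin (n - 1) → ℝ) + u ∈ D; rwa [zero_add])
    have h4 : (⟨v - u, h1⟩ : stab x) = 0 := h2.trans h3.symm
    have h5 : v - u = 0 := congrArg Subtype.val h4
    exact (sub_eq_zero.mp h5).symm
  · rintro y ⟨u, rfl⟩
    obtain ⟨w, hw, -⟩ := h u
    refine ⟨w.1 + u, hw, ?_⟩
    apply Eq.symm
    change orbitMap x u = orbitMap x (w.1 + u)
    rw [orbitMap_eq_iff, add_sub_cancel_right]
    exact w.2

theorem orbitVolMeasure_univ {x : X n}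
    (hspan : Submodule.span ℝ (stab x : Set (Fin (n - 1) → ℝ)) = ⊤) :
    orbitVolMeasure (orbitA x) Set.univ ≠ 0 ∧ orbitVolMeasure (orbitA x) Set.univ ≠ ⊤ := by
  obtain ⟨D, hD, hD0, hD1, hDu⟩ := exists_domain (stab x) hspan
  have hex : ∃ p, IsFundamentalPair (orbitA x) p := ⟨(x, D), isFundamentalPair_of_domain hD hDu⟩
  unfold orbitVolMeasure
  rw [dif_pos hex]
  have hs := hex.choose_spec
  obtain ⟨h1, h2⟩ := domain_of_pair hs
  rw [Measure.map_apply (continuous_orbitMap _).measurable MeasurableSet.univ, Set.preimage_univ,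
    Measure.restrict_apply MeasurableSet.univ, Set.univ_inter,
    volume_eq_of_domains (stab x) hspan hs.1 hD h2 hDu]
  exact ⟨hD0, hD1⟩

end Vale.Agent.P007
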