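import Vale.Agent.P007.Defs

open MeasureTheory Filter Topology Matrix

namespace Vale.Agent.P007

variable {n : ℕ}

theorem cm_mul (g h : SLR n) : ((g * h : SLR n) : Matrix (Fin n) (Fin n) ℝ) =
    (g : Matrix (Fin n) (Fin n) ℝ) * (h : Matrix (Fin n) (Fin n) ℝ) := rfl

theorem cm_one : ((1 : SLR n) : Matrix (Fin n) (Fin n) ℝ) = 1 := rfl

theorem cm_mul_inv (g : SLR n) : (g : Matrix (Fin n) (Fin n) ℝ) *
    ((g⁻¹ : SLR n) : Matrix (Fin n) (Fin n) ℝ) = 1 := by
  rw [← cm_mul, mul_inv_cancel, cm_one]

theorem cm_inv_mul (g : SLR n) : ((g⁻¹ : SLR n) : Matrix (Fin n) (Fin n) ℝ) *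
    (g : Matrix (Fin n) (Fin n) ℝ) = 1 := by
  rw [← cm_mul, inv_mul_cancel, cm_one]

theorem cm_ext {g h : SLR n} (H : (g : Matrix (Fin n) (Fin n) ℝ) = h) : g = h := Subtype.ext H

theorem cm_cont : Continuous fun g : SLR n => (g : Matrix (Fin n) (Fin n) ℝ) :=
  continuous_subtype_val

theorem cm_map (A : SpecialLinearGroup (Fin n) ℤ) :
    ((SpecialLinearGroup.map (Int.castRingHom ℝ) A : SLR n) : Matrix (Fin n) (Fin n) ℝ) =
      (A : Matrix (Fin n) (Fin n) ℤ).map (Int.castRingHom ℝ) := rfl

theorem coset_surjective : Function.Surjective (coset : SLR n → X n) := Quotient.mk_surjective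

theorem coset_eq_iff {a b : SLR n} : coset a = coset b ↔ ∃ γ ∈ SLZ n, γ * b = a := by
  constructor
  · intro h
    obtain ⟨γ, hγ⟩ := Quotient.exact (s := MulAction.orbitRel (SLZ n) (SLR n)) h
    exact ⟨γ, γ.2, hγ⟩
  · rintro ⟨γ, hγ, h⟩
    exact Quotient.sound (s := MulAction.orbitRel (SLZ n) (SLR n)) ⟨⟨γ, hγ⟩, h⟩

theorem act_coset (g h : SLR n) : act (coset g) h = coset (g * h) := rfl

theorem act_act (x : X n) (g h : SLR n) : act (act x g) h = act x (g * h) := by
  obtain ⟨a, rfl⟩ := coset_surjective x
  simp [act_coset, mul_assoc]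

theorem act_one (x : X n) : act x 1 = x := by
  obtain ⟨a, rfl⟩ := coset_surjective x
  simp [act_coset]

theorem isOpenQuotientMap_coset : IsOpenQuotientMap (coset : SLR n → X n) :=
  MulAction.isOpenQuotientMap_quotientMk

theorem continuous_coset : Continuous (coset : SLR n → X n) := isOpenQuotientMap_coset.continuous

instance : LocallyCompactSpace (SLR n) :=
  haveI : LocallyCompactSpace (Matrix (Fin n) (Fin n) ℝ) :=
    inferInstanceAs (LocallyCompactSpace (Fin n → Fin n → ℝ))
  (SpecialLinearGroup.isClosedEmbedding_val (n := Fin n) (R := ℝ)).locallyCompactSpace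

instance : SecondCountableTopology (SLR n) :=
  haveI : SecondCountableTopology (Matrix (Fin n) (Fin n) ℝ) :=
    inferInstanceAs (SecondCountableTopology (Fin n → Fin n → ℝ))
  (SpecialLinearGroup.isClosedEmbedding_val (n := Fin n) (R := ℝ)).isEmbedding.secondCountableTopology

instance : T2Space (SLR n) :=
  (SpecialLinearGroup.isClosedEmbedding_val (n := Fin n) (R := ℝ)).isEmbedding.t2Space

theorem isClosedEmbedding_intCast : IsClosedEmbedding (Int.castRingHom ℝ) :=
  Int.isClosedEmbedding_coe_real

theorem tendsto_SLZ : Tendsto (SLZ n).subtype cofinite (cocompact (SLR n)) := by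
  have h1 : IsClosedEmbedding (SpecialLinearGroup.map (n := Fin n) (Int.castRingHom ℝ)) :=
    isClosedEmbedding_intCast.specialLinearGroup_map
  have h2 : DiscreteTopology (SLZ n) := by
    have := h1.isEmbedding.toHomeomorph.symm.isEmbedding.discreteTopology
    exact this
  exact (SLZ n).tendsto_coe_cofinite_of_discrete ⟨h2⟩

instance : ProperlyDiscontinuousSMul (SLZ n) (SLR n) :=
  (SLZ n).properlyDiscontinuousSMul_of_tendsto_cofinite tendsto_SLZ

instance : T2Space (X n) :=
  t2Space_of_properlyDiscontinuousSMul_of_t2Space (Γ := SLZ n) (T := SLR n)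

instance : LocallyCompactSpace (X n) := isOpenQuotientMap_coset.locallyCompactSpace

instance : SecondCountableTopology (X n) :=
  ContinuousConstSMul.secondCountableTopology (Γ := SLZ n) (T := SLR n)

theorem continuous_act (h : SLR n) : Continuous (fun x : X n => act x h) := by
  rw [isOpenQuotientMap_coset.continuous_comp_iff.symm]
  change Continuous fun g : SLR n => coset (g * h)
  exact continuous_coset.comp (continuous_id.mul continuous_const)

theorem continuous_fullCoord (j : Fin n) :
    Continuous fun u : Fin (n - 1) → ℝ => fullCoord u j := by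
  unfold fullCoord
  split_ifs
  · exact continuous_apply _
  · exact (continuous_finsetSum _ fun i _ => continuous_apply i).neg

theorem continuous_diagA : Continuous (diagA : (Fin (n - 1) → ℝ) → SLR n) := by
  refine Continuous.subtype_mk ?_ _
  exact Continuous.matrix_diagonal
    (continuous_pi fun j => Real.continuous_exp.comp (continuous_fullCoord j))

theorem continuous_orbitMap (x : X n) :
    Continuous (orbitMap x) := by
  obtain ⟨g, rfl⟩ := coset_surjective x
  change Continuous fun u : Fin (n - 1) → ℝ => coset (g * diagA u)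
  exact continuous_coset.comp (continuous_const.mul continuous_diagA)

theorem orbitVolMeasure_eq_zero {B : Set (X n)} {U : Set (X n)} (hU : IsOpen U)
    (h : Disjoint B U) : orbitVolMeasure B U = 0 := by
  unfold orbitVolMeasure
  split_ifs with hB
  · have hs := hB.choose_spec
    rw [Measure.map_apply (continuous_orbitMap _).measurable hU.measurableSet,
      Measure.restrict_apply ((continuous_orbitMap _).measurable hU.measurableSet)]
    convert measure_empty (μ := (volume : Measure (Fin (n - 1) → ℝ)))
    ext u
    simp only [Set.mem_inter_iff, Set.mem_preimage, Set.mem_empty_iff_false, iff_false, not_and]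
    intro hu hu'
    exact Set.disjoint_left.mp h (hs.2.mapsTo hu') hu
  · simp

theorem packetMeasure_eq_zero (S : TorusDatum n) {U : Set (X n)} (hU : IsOpen U)
    (h : ∀ B ∈ S.packet, Disjoint B U) : S.packetMeasure U = 0 := by
  unfold TorusDatum.packetMeasure TorusDatum.totalMeasure
  rw [Measure.smul_apply, Measure.sum_apply _ hU.measurableSet]
  have : ∀ B : S.packet, orbitVolMeasure (B : Set (X n)) U = 0 := fun B =>
    orbitVolMeasure_eq_zero hU (h B.1 B.2)
  simp [this]

theorem measure_pos_of_isOpen {m : Measure (X n)} (hm : IsInvariantProb m) {U : Set (X n)}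
    (hU : IsOpen U) (hne : U.Nonempty) : 0 < m U := by
  by_contra hcon
  have h0 : m U = 0 := by simpa using hcon
  obtain ⟨x, hx⟩ := hne
  have hprob := hm.1
  have key : ∀ h : SLR n, m ((fun x => act x h) ⁻¹' U) = 0 := by
    intro h
    have := hm.2 h
    rw [← Measure.map_apply (continuous_act h).measurable hU.measurableSet, this, h0]
  obtain ⟨g, rfl⟩ := coset_surjective x
  have hcover : (⋃ h : SLR n, (fun x : X n => act x h) ⁻¹' U) = Set.univ := by
    ext y
    obtain ⟨k, rfl⟩ := coset_surjective y
    simp only [Set.mem_iUnion, Set.mem_preimage, Set.mem_univ, iff_true]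
    exact ⟨k⁻¹ * g, by rw [act_coset]; simpa using hx⟩
  obtain ⟨T, hT, hTU⟩ := TopologicalSpace.isOpen_iUnion_countable
    (fun h : SLR n => (fun x : X n => act x h) ⁻¹' U) (fun h => hU.preimage (continuous_act h))
  have : m Set.univ = 0 := by
    rw [← hcover, ← hTU]
    exact (measure_biUnion_null_iff hT).mpr fun h _ => key h
  rw [measure_univ] at this
  exact one_ne_zero this

end Vale.Agent.P007
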